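import Vale.Agent.Lib.P335.Switch

/-!
# P335: the lazy switch chain as an operator; a Poincare inequality gives a mixing bound
-/

namespace Vale.Agent.Lib.P335

open Finset
open scoped Classical

variable {n : ℕ}

/-- Sum over ordered pairs of realizations joined by a switch of the squared difference of `u`
(each unordered pair is counted twice). -/
noncomputable def switchEnergy (d : Fin n → ℕ) (u : SimpleGraph (Fin n) → ℝ) : ℝ :=
  ∑ G ∈ realizations d, ∑ H ∈ realizations d, if IsSwitch G H then (u G - u H) ^ 2 else 0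

/-- One step of the chain applied to a row vector `u`. -/
noncomputable def stepOp (d : Fin n → ℕ) (u : SimpleGraph (Fin n) → ℝ) :
    SimpleGraph (Fin n) → ℝ :=
  fun H => ∑ K ∈ realizations d, u K * kernel K H

/-- The discrete Laplacian of the switch graph on the realizations. -/
noncomputable def lapOp (d : Fin n → ℕ) (u : SimpleGraph (Fin n) → ℝ) :
    SimpleGraph (Fin n) → ℝ :=
  fun H => ∑ K ∈ realizations d, if IsSwitch H K then (u H - u K) else 0

theorem moveProb_nonneg (n : ℕ) : 0 ≤ moveProb n := by
  unfold moveProb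
  positivity

theorem moveProb_mul_le (n : ℕ) : moveProb n * (6 * (n.choose 4 : ℝ)) ≤ 1 / 2 := by
  unfold moveProb
  by_cases h : (n.choose 4 : ℝ) = 0
  · rw [h]; norm_num
  · have hpos : (0 : ℝ) < n.choose 4 := lt_of_le_of_ne (by positivity) (Ne.symm h)
    rw [div_mul_eq_mul_div, div_le_iff₀ (by positivity)]
    linarith

theorem kernel_symm (G H : SimpleGraph (Fin n)) : kernel G H = kernel H G := by
  unfold kernel
  by_cases h : G = H
  · subst h; rfl
  · have h' : ¬ H = G := fun e => h e.symm
    rw [if_neg h, if_neg h']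
    by_cases hs : IsSwitch G H
    · rw [if_pos hs, if_pos hs.symm]
    · have hs' : ¬ IsSwitch H G := fun e => hs e.symm
      rw [if_neg hs, if_neg hs']

theorem card_switch_eq_sum {d : Fin n → ℕ} {H : SimpleGraph (Fin n)} (hH : H ∈ realizations d) :
    ((Finset.univ.filter (fun K => IsSwitch H K)).card : ℝ)
      = ∑ K ∈ realizations d, if IsSwitch H K then (1 : ℝ) else 0 := by
  have : Finset.univ.filter (fun K => IsSwitch H K)
      = (realizations d).filter (fun K => IsSwitch H K) := by
    ext K
    simp only [Finset.mem_filter, Finset.mem_univ, true_and]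
    constructor
    · intro h; exact ⟨h.mem_realizations hH, h⟩
    · intro h; exact h.2
  rw [this, Finset.card_filter]
  push_cast
  rfl

theorem stepOp_eq {d : Fin n → ℕ} (u : SimpleGraph (Fin n) → ℝ) {H : SimpleGraph (Fin n)}
    (hH : H ∈ realizations d) :
    stepOp d u H = u H - moveProb n * lapOp d u H := by
  unfold stepOp lapOp
  have h1 : ∀ K ∈ realizations d, u K * kernel K H
      = (if K = H then u H * (1 - ((Finset.univ.filter (fun K => IsSwitch H K)).card : ℝ)
            * moveProb n) else 0)
        + moveProb n * (if IsSwitch H K then u K else 0) := by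
    intro K _
    unfold kernel
    by_cases hKH : K = H
    · subst hKH
      have : ¬ IsSwitch K K := fun e => e.ne rfl
      simp [this]
    · rw [if_neg hKH, if_neg hKH]
      by_cases hs : IsSwitch K H
      · rw [if_pos hs, if_pos hs.symm]; ring
      · have hs' : ¬ IsSwitch H K := fun e => hs e.symm
        rw [if_neg hs, if_neg hs']; ring
  rw [Finset.sum_congr rfl h1, Finset.sum_add_distrib, Finset.sum_ite_eq' (realizations d) H,
    if_pos hH, ← Finset.mul_sum, card_switch_eq_sum hH]
  have h2 : ∀ K ∈ realizations d, (if IsSwitch H K then (u H - u K) else 0)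
      = u H * (if IsSwitch H K then (1 : ℝ) else 0) - (if IsSwitch H K then u K else 0) := by
    intro K _
    by_cases hs : IsSwitch H K <;> simp [hs]
  rw [Finset.sum_congr rfl h2, Finset.sum_sub_distrib, ← Finset.mul_sum]
  ring

theorem sum_lapOp (d : Fin n → ℕ) (u : SimpleGraph (Fin n) → ℝ) :
    ∑ H ∈ realizations d, lapOp d u H = 0 := by
  unfold lapOp
  have h1 : ∑ H ∈ realizations d, ∑ K ∈ realizations d,
      (if IsSwitch H K then (u H - u K) else 0)
      = ∑ H ∈ realizations d, ∑ K ∈ realizations d,
      (if IsSwitch H K then (u K - u H) else 0) := by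
    rw [Finset.sum_comm]
    apply Finset.sum_congr rfl; intro H _
    apply Finset.sum_congr rfl; intro K _
    by_cases hs : IsSwitch H K
    · rw [if_pos hs, if_pos hs.symm]
    · have hs' : ¬ IsSwitch K H := fun e => hs e.symm
      rw [if_neg hs, if_neg hs']
  have h2 : ∑ H ∈ realizations d, ∑ K ∈ realizations d,
      (if IsSwitch H K then (u K - u H) else 0)
      = - ∑ H ∈ realizations d, ∑ K ∈ realizations d,
      (if IsSwitch H K then (u H - u K) else 0) := by
    rw [← Finset.sum_neg_distrib]
    apply Finset.sum_congr rfl; intro H _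
    rw [← Finset.sum_neg_distrib]
    apply Finset.sum_congr rfl; intro K _
    by_cases hs : IsSwitch H K <;> simp [hs]
  linarith

theorem sum_stepOp (d : Fin n → ℕ) (u : SimpleGraph (Fin n) → ℝ) :
    ∑ H ∈ realizations d, stepOp d u H = ∑ H ∈ realizations d, u H := by
  rw [Finset.sum_congr rfl (fun H hH => stepOp_eq u hH), Finset.sum_sub_distrib,
    ← Finset.mul_sum, sum_lapOp]
  ring

theorem sum_mul_lapOp (d : Fin n → ℕ) (u : SimpleGraph (Fin n) → ℝ) :
    ∑ H ∈ realizations d, u H * lapOp d u H = switchEnergy d u / 2 := by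
  unfold lapOp switchEnergy
  have h1 : ∑ H ∈ realizations d, u H * ∑ K ∈ realizations d,
      (if IsSwitch H K then (u H - u K) else 0)
      = ∑ H ∈ realizations d, ∑ K ∈ realizations d,
        (if IsSwitch H K then u H * (u H - u K) else 0) := by
    apply Finset.sum_congr rfl; intro H _
    rw [Finset.mul_sum]
    apply Finset.sum_congr rfl; intro K _
    by_cases hs : IsSwitch H K <;> simp [hs]
  have h2 : ∑ H ∈ realizations d, ∑ K ∈ realizations d,
        (if IsSwitch H K then u H * (u H - u K) else 0)
      = ∑ H ∈ realizations d, ∑ K ∈ realizations d,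
        (if IsSwitch H K then u K * (u K - u H) else 0) := by
    rw [Finset.sum_comm]
    apply Finset.sum_congr rfl; intro H _
    apply Finset.sum_congr rfl; intro K _
    by_cases hs : IsSwitch H K
    · rw [if_pos hs, if_pos hs.symm]
    · have hs' : ¬ IsSwitch K H := fun e => hs e.symm
      rw [if_neg hs, if_neg hs']
  have h3 : ∑ H ∈ realizations d, ∑ K ∈ realizations d,
        (if IsSwitch H K then (u H - u K) ^ 2 else 0)
      = ∑ H ∈ realizations d, ∑ K ∈ realizations d,
        (if IsSwitch H K then u H * (u H - u K) else 0)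
        + ∑ H ∈ realizations d, ∑ K ∈ realizations d,
        (if IsSwitch H K then u K * (u K - u H) else 0) := by
    rw [← Finset.sum_add_distrib]
    apply Finset.sum_congr rfl; intro H _
    rw [← Finset.sum_add_distrib]
    apply Finset.sum_congr rfl; intro K _
    by_cases hs : IsSwitch H K
    · simp only [if_pos hs]; ring
    · simp [hs]
  rw [h1, h3, ← h2]
  ring

theorem lapOp_sq_le (d : Fin n → ℕ) (u : SimpleGraph (Fin n) → ℝ) (H : SimpleGraph (Fin n)) :
    (lapOp d u H) ^ 2 ≤ (6 * (n.choose 4 : ℝ)) *
      ∑ K ∈ realizations d, if IsSwitch H K then (u H - u K) ^ 2 else 0 := by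
  unfold lapOp
  have hfil : ∀ g : SimpleGraph (Fin n) → ℝ,
      ∑ K ∈ realizations d, (if IsSwitch H K then g K else 0)
        = ∑ K ∈ (realizations d).filter (fun K => IsSwitch H K), g K := by
    intro g; rw [Finset.sum_filter]
  rw [hfil (fun K => u H - u K), hfil (fun K => (u H - u K) ^ 2)]
  have hcs := sq_sum_le_card_mul_sum_sq (s := (realizations d).filter (fun K => IsSwitch H K))
    (f := fun K => u H - u K)
  have hcard : (((realizations d).filter (fun K => IsSwitch H K)).card : ℝ)
      ≤ 6 * (n.choose 4 : ℝ) := by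
    have h1 : ((realizations d).filter (fun K => IsSwitch H K)).card
        ≤ (Finset.univ.filter (fun K => IsSwitch H K)).card :=
      Finset.card_le_card (Finset.filter_subset_filter _ (Finset.subset_univ _))
    have h2 := card_switch_le H
    exact_mod_cast h1.trans h2
  have hnn : 0 ≤ ∑ K ∈ (realizations d).filter (fun K => IsSwitch H K), (u H - u K) ^ 2 :=
    Finset.sum_nonneg (fun K _ => sq_nonneg _)
  calc (∑ K ∈ (realizations d).filter (fun K => IsSwitch H K), (u H - u K)) ^ 2
      ≤ (((realizations d).filter (fun K => IsSwitch H K)).card : ℝ)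
          * ∑ K ∈ (realizations d).filter (fun K => IsSwitch H K), (u H - u K) ^ 2 := hcs
    _ ≤ (6 * (n.choose 4 : ℝ))
          * ∑ K ∈ (realizations d).filter (fun K => IsSwitch H K), (u H - u K) ^ 2 :=
        mul_le_mul_of_nonneg_right hcard hnn

/-- Energy inequality for one step of the lazy chain. -/
theorem sum_sq_stepOp_le (d : Fin n → ℕ) (u : SimpleGraph (Fin n) → ℝ) :
    ∑ H ∈ realizations d, (stepOp d u H) ^ 2
      ≤ ∑ H ∈ realizations d, (u H) ^ 2 - moveProb n / 2 * switchEnergy d u := by
  have hq := moveProb_nonneg n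
  have hq2 := moveProb_mul_le n
  have h1 : ∑ H ∈ realizations d, (stepOp d u H) ^ 2
      = ∑ H ∈ realizations d, (u H) ^ 2 - 2 * moveProb n * ∑ H ∈ realizations d, u H * lapOp d u H
        + moveProb n ^ 2 * ∑ H ∈ realizations d, (lapOp d u H) ^ 2 := by
    rw [Finset.mul_sum, Finset.mul_sum, ← Finset.sum_sub_distrib, ← Finset.sum_add_distrib]
    apply Finset.sum_congr rfl; intro H hH
    rw [stepOp_eq u hH]; ring
  have h2 : ∑ H ∈ realizations d, (lapOp d u H) ^ 2
      ≤ (6 * (n.choose 4 : ℝ)) * switchEnergy d u := by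
    unfold switchEnergy
    rw [Finset.mul_sum]
    exact Finset.sum_le_sum (fun H _ => lapOp_sq_le d u H)
  have hE : 0 ≤ switchEnergy d u := by
    unfold switchEnergy
    apply Finset.sum_nonneg; intro G _
    apply Finset.sum_nonneg; intro H _
    by_cases hs : IsSwitch G H
    · rw [if_pos hs]; exact sq_nonneg _
    · rw [if_neg hs]
  rw [h1, sum_mul_lapOp]
  have h3 : moveProb n ^ 2 * ∑ H ∈ realizations d, (lapOp d u H) ^ 2
      ≤ moveProb n ^ 2 * ((6 * (n.choose 4 : ℝ)) * switchEnergy d u) :=
    mul_le_mul_of_nonneg_left h2 (sq_nonneg _)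
  have h4 : moveProb n ^ 2 * ((6 * (n.choose 4 : ℝ)) * switchEnergy d u)
      ≤ moveProb n * (1 / 2) * switchEnergy d u := by
    have : moveProb n * (moveProb n * (6 * (n.choose 4 : ℝ))) ≤ moveProb n * (1 / 2) :=
      mul_le_mul_of_nonneg_left hq2 hq
    nlinarith [this, hE]
  linarith

/-- Poincare inequality with constant `γ` for the chain of `d`: for every `u` with zero sum on
the realizations, `γ * Σ u² ≤ (moveProb n / 2) * switchEnergy d u` (the right side is the
Dirichlet form `(1/2) Σ_{G,H} P(G,H) (u G - u H)²`). -/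
def Poincare (d : Fin n → ℕ) (γ : ℝ) : Prop :=
  ∀ u : SimpleGraph (Fin n) → ℝ, ∑ H ∈ realizations d, u H = 0 →
    γ * ∑ H ∈ realizations d, (u H) ^ 2 ≤ moveProb n / 2 * switchEnergy d u

theorem sum_sq_stepOp_le_of_poincare {d : Fin n → ℕ} {γ : ℝ} (hP : Poincare d γ)
    (u : SimpleGraph (Fin n) → ℝ) (hu : ∑ H ∈ realizations d, u H = 0) :
    ∑ H ∈ realizations d, (stepOp d u H) ^ 2 ≤ (1 - γ) * ∑ H ∈ realizations d, (u H) ^ 2 := by
  have h1 := sum_sq_stepOp_le d u
  have h2 := hP u hu
  linarith

/-- The distribution after `t` steps minus the uniform distribution. -/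
noncomputable def centered (d : Fin n → ℕ) (G : SimpleGraph (Fin n)) (t : ℕ) :
    SimpleGraph (Fin n) → ℝ :=
  fun H => dist d G t H - 1 / ((realizations d).card : ℝ)

theorem stepOp_one {d : Fin n → ℕ} {H : SimpleGraph (Fin n)} (hH : H ∈ realizations d) :
    stepOp d (fun _ => (1 : ℝ)) H = 1 := by
  rw [stepOp_eq _ hH]
  unfold lapOp
  simp

theorem dist_succ (d : Fin n → ℕ) (G : SimpleGraph (Fin n)) (t : ℕ) :
    dist d G (t + 1) = stepOp d (dist d G t) := rfl

theorem centered_succ {d : Fin n → ℕ} (G : SimpleGraph (Fin n)) (t : ℕ)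
    {H : SimpleGraph (Fin n)} (hH : H ∈ realizations d) :
    centered d G (t + 1) H = stepOp d (centered d G t) H := by
  unfold centered
  rw [dist_succ]
  have h1 := stepOp_one hH
  unfold stepOp at h1 ⊢
  have h2 : ∑ K ∈ realizations d, (dist d G t K - 1 / ((realizations d).card : ℝ)) * kernel K H
      = ∑ K ∈ realizations d, dist d G t K * kernel K H
        - 1 / ((realizations d).card : ℝ) * ∑ K ∈ realizations d, 1 * kernel K H := by
    rw [Finset.mul_sum, ← Finset.sum_sub_distrib]
    apply Finset.sum_congr rfl; intro K _; ring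
  rw [h2, h1]; ring

theorem sum_dist {d : Fin n → ℕ} {G : SimpleGraph (Fin n)} (hG : G ∈ realizations d) (t : ℕ) :
    ∑ H ∈ realizations d, dist d G t H = 1 := by
  induction t with
  | zero =>
    simp only [dist]
    rw [Finset.sum_ite_eq' (realizations d) G, if_pos hG]
  | succ t ih =>
    rw [dist_succ, sum_stepOp, ih]

theorem sum_centered {d : Fin n → ℕ} {G : SimpleGraph (Fin n)} (hG : G ∈ realizations d)
    (t : ℕ) : ∑ H ∈ realizations d, centered d G t H = 0 := by
  unfold centered
  rw [Finset.sum_sub_distrib, sum_dist hG, Finset.sum_const, nsmul_eq_mul]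
  have hN : ((realizations d).card : ℝ) ≠ 0 := by
    have : 0 < (realizations d).card := Finset.card_pos.mpr ⟨G, hG⟩
    positivity
  field_simp
  ring

theorem sum_sq_centered_zero {d : Fin n → ℕ} {G : SimpleGraph (Fin n)}
    (hG : G ∈ realizations d) : ∑ H ∈ realizations d, (centered d G 0 H) ^ 2 ≤ 1 := by
  unfold centered
  simp only [dist]
  have hNpos : (0 : ℝ) < (realizations d).card := by
    have : 0 < (realizations d).card := Finset.card_pos.mpr ⟨G, hG⟩
    exact_mod_cast this
  have h1 : ∀ H ∈ realizations d,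
      ((if H = G then (1 : ℝ) else 0) - 1 / ((realizations d).card : ℝ)) ^ 2
      = (if H = G then (1 - 2 / ((realizations d).card : ℝ)) else 0)
        + (1 / ((realizations d).card : ℝ)) ^ 2 := by
    intro H _
    by_cases h : H = G
    · simp only [h, if_true]; ring
    · simp only [h, if_false]; ring
  rw [Finset.sum_congr rfl h1, Finset.sum_add_distrib, Finset.sum_ite_eq' (realizations d) G,
    if_pos hG, Finset.sum_const, nsmul_eq_mul]
  have h2 : ((realizations d).card : ℝ) * (1 / ((realizations d).card : ℝ)) ^ 2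
      = 1 / ((realizations d).card : ℝ) := by
    field_simp
  rw [h2]
  have h3 : (0 : ℝ) < 1 / ((realizations d).card : ℝ) := by positivity
  have h4 : 2 / ((realizations d).card : ℝ) = 2 * (1 / ((realizations d).card : ℝ)) := by ring
  rw [h4]
  linarith

theorem sum_sq_centered_le {d : Fin n → ℕ} {γ : ℝ} (hγ1 : γ ≤ 1) (hP : Poincare d γ)
    {G : SimpleGraph (Fin n)} (hG : G ∈ realizations d) (t : ℕ) :
    ∑ H ∈ realizations d, (centered d G t H) ^ 2 ≤ (1 - γ) ^ t := by
  induction t with
  | zero => simpa using sum_sq_centered_zero hG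
  | succ t ih =>
    have h1 : ∑ H ∈ realizations d, (centered d G (t + 1) H) ^ 2
        = ∑ H ∈ realizations d, (stepOp d (centered d G t) H) ^ 2 := by
      apply Finset.sum_congr rfl; intro H hH
      rw [centered_succ G t hH]
    rw [h1]
    have h2 := sum_sq_stepOp_le_of_poincare hP (centered d G t) (sum_centered hG t)
    have h3 : (1 - γ) * ∑ H ∈ realizations d, (centered d G t H) ^ 2 ≤ (1 - γ) * (1 - γ) ^ t :=
      mul_le_mul_of_nonneg_left ih (by linarith)
    rw [pow_succ]
    linarith

/-- A Poincare inequality with constant `γ` gives mixing at every time `t ≥ ln(4N)/γ`. -/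
theorem mixed_of_poincare {d : Fin n → ℕ} {γ : ℝ} (hγ1 : γ ≤ 1)
    (hP : Poincare d γ) (t : ℕ)
    (ht : Real.log (4 * ((realizations d).card : ℝ)) ≤ γ * t) : IsMixedAt d t := by
  intro G hG
  have hNpos : (0 : ℝ) < (realizations d).card := by
    have : 0 < (realizations d).card := Finset.card_pos.mpr ⟨G, hG⟩
    exact_mod_cast this
  have hsq := sum_sq_centered_le hγ1 hP hG t
  have hpow : (1 - γ) ^ t ≤ 1 / (4 * ((realizations d).card : ℝ)) := by
    have h1 : (1 - γ) ≤ Real.exp (-γ) := by
      have := Real.add_one_le_exp (-γ); linarith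
    have h2 : (1 - γ) ^ t ≤ Real.exp (-γ) ^ t := pow_le_pow_left₀ (by linarith) h1 t
    have h3 : Real.exp (-γ) ^ t = Real.exp (-(γ * t)) := by
      rw [← Real.exp_nat_mul]; congr 1; ring
    have h4 : Real.exp (-(γ * t)) ≤ Real.exp (-Real.log (4 * ((realizations d).card : ℝ))) :=
      Real.exp_le_exp.mpr (by linarith)
    have h5 : Real.exp (-Real.log (4 * ((realizations d).card : ℝ)))
        = 1 / (4 * ((realizations d).card : ℝ)) := by
      rw [Real.exp_neg, Real.exp_log (by positivity)]; ring
    linarith [h2, h3.le, h3.ge, h4, h5.le, h5.ge]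
  have habs : (∑ H ∈ realizations d, |centered d G t H|) ^ 2
      ≤ ((realizations d).card : ℝ) * ∑ H ∈ realizations d, (centered d G t H) ^ 2 := by
    have := sq_sum_le_card_mul_sum_sq (s := realizations d) (f := fun H => |centered d G t H|)
    simpa [sq_abs] using this
  have hle : (∑ H ∈ realizations d, |centered d G t H|) ^ 2 ≤ 1 / 4 := by
    have h1 : ((realizations d).card : ℝ) * ∑ H ∈ realizations d, (centered d G t H) ^ 2
        ≤ ((realizations d).card : ℝ) * (1 / (4 * ((realizations d).card : ℝ))) :=
      mul_le_mul_of_nonneg_left (hsq.trans hpow) hNpos.le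
    have h2 : ((realizations d).card : ℝ) * (1 / (4 * ((realizations d).card : ℝ))) = 1 / 4 := by
      field_simp
    linarith
  have hnn : 0 ≤ ∑ H ∈ realizations d, |centered d G t H| :=
    Finset.sum_nonneg (fun H _ => abs_nonneg _)
  have hhalf : ∑ H ∈ realizations d, |centered d G t H| ≤ 1 / 2 := by
    by_contra hc
    push Not at hc
    nlinarith
  unfold tvUniform
  have : ∑ H ∈ realizations d, |dist d G t H - 1 / ((realizations d).card : ℝ)|
      = ∑ H ∈ realizations d, |centered d G t H| := rfl
  rw [this]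
  linarith

end Vale.Agent.Lib.P335
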