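import Vale.Agent.Lib.P335.Switch

/-!
# P335: any two realizations of a degree vector are joined by a chain of switches
-/

namespace Vale.Agent.Lib.P335

open Finset
open scoped Classical

variable {n : ℕ}

/-- If `v ~ x`, `v ≁ y`, `v ≠ y` and `deg x ≤ deg y`, there is a switch replacing the edge `vx`
by the edge `vy`. -/
theorem exists_exchange (G : SimpleGraph (Fin n)) {v x y : Fin n} (hvx : G.Adj v x)
    (hvy : ¬ G.Adj v y) (hne : v ≠ y) (hdeg : G.degree x ≤ G.degree y) :
    ∃ z, SwitchAt G v x y z := by
  have hxy : x ≠ y := by rintro rfl; exact hvy hvx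
  by_contra hcon
  push Not at hcon
  -- every neighbour `z ≠ x` of `y` is adjacent to `x`
  have hall : ∀ z, G.Adj y z → z ≠ x → G.Adj x z := by
    intro z hyz hzx
    by_contra hxz
    apply hcon z
    refine ⟨G.ne_of_adj hvx, hne, ?_, hxy, fun e => hzx e.symm, G.ne_of_adj hyz, hvx, hyz, hvy, hxz⟩
    rintro rfl
    exact hvy hyz.symm
  have hvmem : v ∈ G.neighborFinset x := by
    rw [SimpleGraph.mem_neighborFinset]; exact hvx.symm
  by_cases hadj : G.Adj x y
  · -- N(y) ⊆ insert x (N(x) \ {v, y})
    have hsub : G.neighborFinset y ⊆ insert x (((G.neighborFinset x).erase v).erase y) := by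
      intro z hz
      rw [SimpleGraph.mem_neighborFinset] at hz
      by_cases hzx : z = x
      · rw [hzx]; exact Finset.mem_insert_self _ _
      · apply Finset.mem_insert_of_mem
        rw [Finset.mem_erase, Finset.mem_erase, SimpleGraph.mem_neighborFinset]
        refine ⟨(G.ne_of_adj hz).symm, ?_, hall z hz hzx⟩
        rintro rfl
        exact hvy hz.symm
    have hymem : y ∈ (G.neighborFinset x).erase v := by
      rw [Finset.mem_erase, SimpleGraph.mem_neighborFinset]
      exact ⟨fun e => hne e.symm, hadj⟩
    have hc := Finset.card_le_card hsub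
    have hc2 := Finset.card_insert_le x (((G.neighborFinset x).erase v).erase y)
    rw [Finset.card_erase_of_mem hymem, Finset.card_erase_of_mem hvmem,
      SimpleGraph.card_neighborFinset_eq_degree] at hc2
    rw [SimpleGraph.card_neighborFinset_eq_degree] at hc
    have hpos : 2 ≤ G.degree x := by
      have h1 : ({v, y} : Finset (Fin n)) ⊆ G.neighborFinset x := by
        intro w hw
        rw [Finset.mem_insert, Finset.mem_singleton] at hw
        rcases hw with rfl | rfl
        · exact hvmem
        · rw [SimpleGraph.mem_neighborFinset]; exact hadj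
      have h2 := Finset.card_le_card h1
      rw [Finset.card_pair hne, SimpleGraph.card_neighborFinset_eq_degree] at h2
      exact h2
    omega
  · have hsub : G.neighborFinset y ⊆ (G.neighborFinset x).erase v := by
      intro z hz
      rw [SimpleGraph.mem_neighborFinset] at hz
      have hzx : z ≠ x := by rintro rfl; exact hadj hz.symm
      rw [Finset.mem_erase, SimpleGraph.mem_neighborFinset]
      refine ⟨?_, hall z hz hzx⟩
      rintro rfl
      exact hvy hz.symm
    have hc := Finset.card_le_card hsub
    rw [Finset.card_erase_of_mem hvmem, SimpleGraph.card_neighborFinset_eq_degree,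
      SimpleGraph.card_neighborFinset_eq_degree] at hc
    have hpos : 1 ≤ G.degree x := by
      have := Finset.card_pos.mpr ⟨v, hvmem⟩
      rwa [SimpleGraph.card_neighborFinset_eq_degree] at this
    omega

/-- Adjacency at `v` after the exchange switch. -/
theorem exchange_adj {G : SimpleGraph (Fin n)} {v x y z : Fin n} (h : SwitchAt G v x y z)
    (w : Fin n) :
    (switchGraph G v x y z).Adj v w ↔ (G.Adj v w ∧ w ≠ x) ∨ w = y := by
  rw [switchGraph_adj h.hac h.hbd]
  have hvy := h.hac; have hvz := h.had; have hvx := h.hab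
  constructor
  · rintro (⟨h1, h2, _⟩ | h2 | h2)
    · left
      refine ⟨h1, ?_⟩
      rintro rfl
      exact h2 rfl
    · right
      rcases Sym2.eq_iff.mp h2 with ⟨_, h4⟩ | ⟨h3, _⟩
      · exact h4
      · exact absurd h3 hvy
    · rcases Sym2.eq_iff.mp h2 with ⟨h3, _⟩ | ⟨h3, _⟩
      · exact absurd h3 hvx
      · exact absurd h3 hvz
  · rintro (⟨h1, h2⟩ | rfl)
    · left
      refine ⟨h1, ?_, ?_⟩
      · intro e
        rcases Sym2.eq_iff.mp e with ⟨_, h4⟩ | ⟨h3, _⟩
        · exact h2 h4
        · exact hvx h3
      · intro e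
        rcases Sym2.eq_iff.mp e with ⟨h3, _⟩ | ⟨h3, _⟩
        · exact hvy h3
        · exact hvz h3
    · right; left; rfl

theorem degree_eq_zero_iff' (G : SimpleGraph (Fin n)) (v : Fin n) :
    G.degree v = 0 ↔ ∀ w, ¬ G.Adj v w := by
  rw [← SimpleGraph.card_neighborFinset_eq_degree, Finset.card_eq_zero,
    Finset.eq_empty_iff_forall_notMem]
  simp [SimpleGraph.mem_neighborFinset]

theorem reflTransGen_degree {G H : SimpleGraph (Fin n)}
    (h : Relation.ReflTransGen IsSwitch G H) (u : Fin n) : H.degree u = G.degree u := by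
  induction h with
  | refl => rfl
  | tail _ hs ih => rw [hs.degree_eq u, ih]

theorem reflTransGen_symm {G H : SimpleGraph (Fin n)}
    (h : Relation.ReflTransGen IsSwitch G H) : Relation.ReflTransGen IsSwitch H G := by
  induction h with
  | refl => exact Relation.ReflTransGen.refl
  | tail _ hs ih => exact Relation.ReflTransGen.head hs.symm ih

/-- Neighbourhoods of `v` can be made equal by switches applied to `G` and to `H`. -/
theorem align_vertex (v : Fin n) : ∀ (k : ℕ) (G H : SimpleGraph (Fin n)),
    (∀ u, G.degree u = H.degree u) →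
    (Finset.univ.filter (fun w => G.Adj v w ∧ ¬ H.Adj v w)).card = k →
    ∃ G₁ H₁, Relation.ReflTransGen IsSwitch G G₁ ∧ Relation.ReflTransGen IsSwitch H H₁ ∧
      ∀ w, G₁.Adj v w ↔ H₁.Adj v w := by
  intro k
  induction k with
  | zero =>
    intro G H hdeg hk
    refine ⟨G, H, Relation.ReflTransGen.refl, Relation.ReflTransGen.refl, ?_⟩
    rw [Finset.card_eq_zero, Finset.eq_empty_iff_forall_notMem] at hk
    have hsub : G.neighborFinset v ⊆ H.neighborFinset v := by
      intro w hw
      rw [SimpleGraph.mem_neighborFinset] at hw ⊢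
      by_contra hc
      exact hk w (by simp [hw, hc])
    have heq : G.neighborFinset v = H.neighborFinset v := by
      apply Finset.eq_of_subset_of_card_le hsub
      rw [SimpleGraph.card_neighborFinset_eq_degree, SimpleGraph.card_neighborFinset_eq_degree,
        hdeg v]
    intro w
    rw [← SimpleGraph.mem_neighborFinset, ← SimpleGraph.mem_neighborFinset, heq]
  | succ k ih =>
    intro G H hdeg hk
    have hne : (Finset.univ.filter (fun w => G.Adj v w ∧ ¬ H.Adj v w)).Nonempty := by
      rw [← Finset.card_pos, hk]; omega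
    obtain ⟨x, hx⟩ := hne
    rw [Finset.mem_filter] at hx
    obtain ⟨_, hGx, hHx⟩ := hx
    -- a vertex y adjacent to v in H but not in G
    have hy : ∃ y, H.Adj v y ∧ ¬ G.Adj v y := by
      by_contra hc
      push Not at hc
      have hsub : H.neighborFinset v ⊆ G.neighborFinset v := by
        intro w hw
        rw [SimpleGraph.mem_neighborFinset] at hw ⊢
        exact hc w hw
      have heq : H.neighborFinset v = G.neighborFinset v := by
        apply Finset.eq_of_subset_of_card_le hsub
        rw [SimpleGraph.card_neighborFinset_eq_degree,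
          SimpleGraph.card_neighborFinset_eq_degree, hdeg v]
      have : x ∈ H.neighborFinset v := by
        rw [heq, SimpleGraph.mem_neighborFinset]; exact hGx
      rw [SimpleGraph.mem_neighborFinset] at this
      exact hHx this
    obtain ⟨y, hHy, hGy⟩ := hy
    by_cases hd : G.degree x ≤ G.degree y
    · obtain ⟨z, hz⟩ := exists_exchange G hGx hGy (H.ne_of_adj hHy) hd
      have hsw : IsSwitch G (switchGraph G v x y z) := by
        rw [isSwitch_iff']; exact ⟨v, x, y, z, hz, rfl⟩
      have hdeg' : ∀ u, (switchGraph G v x y z).degree u = H.degree u := by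
        intro u; rw [hz.degree_eq u, hdeg u]
      have hcard : (Finset.univ.filter
          (fun w => (switchGraph G v x y z).Adj v w ∧ ¬ H.Adj v w)).card = k := by
        have hset : Finset.univ.filter (fun w => (switchGraph G v x y z).Adj v w ∧ ¬ H.Adj v w)
            = (Finset.univ.filter (fun w => G.Adj v w ∧ ¬ H.Adj v w)).erase x := by
          ext w
          rw [Finset.mem_filter, Finset.mem_erase, Finset.mem_filter, exchange_adj hz]
          constructor
          · rintro ⟨_, (⟨h1, h2⟩ | rfl), h3⟩
            · exact ⟨h2, Finset.mem_univ _, h1, h3⟩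
            · exact absurd hHy h3
          · rintro ⟨h2, _, h1, h3⟩
            exact ⟨Finset.mem_univ _, Or.inl ⟨h1, h2⟩, h3⟩
        rw [hset, Finset.card_erase_of_mem (by simp [hGx, hHx]), hk]; rfl
      obtain ⟨G₁, H₁, h1, h2, h3⟩ := ih _ H hdeg' hcard
      exact ⟨G₁, H₁, Relation.ReflTransGen.head hsw h1, h2, h3⟩
    · have hd' : H.degree y ≤ H.degree x := by
        rw [← hdeg x, ← hdeg y]; omega
      obtain ⟨z, hz⟩ := exists_exchange H hHy hHx (G.ne_of_adj hGx) hd'
      have hsw : IsSwitch H (switchGraph H v y x z) := by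
        rw [isSwitch_iff']; exact ⟨v, y, x, z, hz, rfl⟩
      have hdeg' : ∀ u, G.degree u = (switchGraph H v y x z).degree u := by
        intro u; rw [hz.degree_eq u, hdeg u]
      have hcard : (Finset.univ.filter
          (fun w => G.Adj v w ∧ ¬ (switchGraph H v y x z).Adj v w)).card = k := by
        have hset : Finset.univ.filter (fun w => G.Adj v w ∧ ¬ (switchGraph H v y x z).Adj v w)
            = (Finset.univ.filter (fun w => G.Adj v w ∧ ¬ H.Adj v w)).erase x := by
          ext w
          rw [Finset.mem_filter, Finset.mem_erase, Finset.mem_filter, exchange_adj hz]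
          constructor
          · rintro ⟨_, h1, h3⟩
            push Not at h3
            refine ⟨h3.2, Finset.mem_univ _, h1, ?_⟩
            intro hHw
            have := h3.1 hHw
            rw [this] at h1
            exact hGy h1
          · rintro ⟨h2, _, h1, h3⟩
            refine ⟨Finset.mem_univ _, h1, ?_⟩
            rintro (⟨h4, _⟩ | h4)
            · exact h3 h4
            · exact h2 h4
        rw [hset, Finset.card_erase_of_mem (by simp [hGx, hHx]), hk]; rfl
      obtain ⟨G₁, H₁, h1, h2, h3⟩ := ih G _ hdeg' hcard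
      exact ⟨G₁, H₁, h1, Relation.ReflTransGen.head hsw h2, h3⟩

/-- `G` with all edges at `v` deleted. -/
def pinAt (G : SimpleGraph (Fin n)) (v : Fin n) : SimpleGraph (Fin n) where
  Adj x y := G.Adj x y ∧ x ≠ v ∧ y ≠ v
  symm := ⟨fun _ _ h => ⟨h.1.symm, h.2.2, h.2.1⟩⟩
  loopless := ⟨fun x h => G.loopless.irrefl x h.1⟩

theorem pinAt_adj (G : SimpleGraph (Fin n)) (v x y : Fin n) :
    (pinAt G v).Adj x y ↔ G.Adj x y ∧ x ≠ v ∧ y ≠ v := Iff.rfl

/-- Degrees after deleting all edges at `v`. -/
theorem degree_pinAt (G : SimpleGraph (Fin n)) (v u : Fin n) :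
    (pinAt G v).degree u
      = if u = v then 0 else G.degree u - (if G.Adj u v then 1 else 0) := by
  by_cases huv : u = v
  · rw [if_pos huv, degree_eq_zero_iff']
    intro w hw
    rw [pinAt_adj] at hw
    exact hw.2.1 huv
  · rw [if_neg huv]
    have hset : (pinAt G v).neighborFinset u = (G.neighborFinset u).erase v := by
      ext w
      rw [SimpleGraph.mem_neighborFinset, Finset.mem_erase, SimpleGraph.mem_neighborFinset,
        pinAt_adj]
      constructor
      · rintro ⟨h1, _, h3⟩; exact ⟨h3, h1⟩
      · rintro ⟨h3, h1⟩; exact ⟨h1, huv, h3⟩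
    rw [← SimpleGraph.card_neighborFinset_eq_degree, hset,
      ← SimpleGraph.card_neighborFinset_eq_degree]
    by_cases hadj : G.Adj u v
    · rw [if_pos hadj, Finset.card_erase_of_mem (by rw [SimpleGraph.mem_neighborFinset]; exact hadj)]
    · rw [if_neg hadj, Finset.erase_eq_of_notMem (by rw [SimpleGraph.mem_neighborFinset]; exact hadj)]
      rfl

/-- The edges of `G` at `v`, as a graph. -/
def starAt (G : SimpleGraph (Fin n)) (v : Fin n) : SimpleGraph (Fin n) where
  Adj x y := G.Adj x y ∧ (x = v ∨ y = v)
  symm := ⟨fun _ _ h => ⟨h.1.symm, h.2.symm⟩⟩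
  loopless := ⟨fun x h => G.loopless.irrefl x h.1⟩

theorem starAt_adj (G : SimpleGraph (Fin n)) (v x y : Fin n) :
    (starAt G v).Adj x y ↔ G.Adj x y ∧ (x = v ∨ y = v) := Iff.rfl

theorem pinAt_sup_starAt (G : SimpleGraph (Fin n)) (v : Fin n) :
    pinAt G v ⊔ starAt G v = G := by
  ext x y
  rw [SimpleGraph.sup_adj, pinAt_adj, starAt_adj]
  constructor
  · rintro (⟨h, _⟩ | ⟨h, _⟩) <;> exact h
  · intro h
    by_cases hx : x = v
    · exact Or.inr ⟨h, Or.inl hx⟩
    · by_cases hy : y = v
      · exact Or.inr ⟨h, Or.inr hy⟩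
      · exact Or.inl ⟨h, hx, hy⟩

theorem pinAt_sup_starAt' {G H : SimpleGraph (Fin n)} {v : Fin n}
    (hv : ∀ w, G.Adj v w ↔ H.Adj v w) : pinAt H v ⊔ starAt G v = H := by
  have : starAt G v = starAt H v := by
    ext x y
    rw [starAt_adj, starAt_adj]
    constructor
    · rintro ⟨h, (rfl | rfl)⟩
      · exact ⟨(hv y).mp h, Or.inl rfl⟩
      · exact ⟨((hv x).mp h.symm).symm, Or.inr rfl⟩
    · rintro ⟨h, (rfl | rfl)⟩
      · exact ⟨(hv y).mpr h, Or.inl rfl⟩
      · exact ⟨((hv x).mpr h.symm).symm, Or.inr rfl⟩
  rw [this, pinAt_sup_starAt]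

/-- A switch in a graph with `v` isolated stays a switch after adding edges at `v`. -/
theorem IsSwitch.sup_star {K₁ K₂ S : SimpleGraph (Fin n)} {v : Fin n} (h : IsSwitch K₁ K₂)
    (hv : K₁.degree v = 0) (hS : ∀ x y, S.Adj x y → x = v ∨ y = v) :
    IsSwitch (K₁ ⊔ S) (K₂ ⊔ S) := by
  rw [degree_eq_zero_iff'] at hv
  rw [isSwitch_iff'] at h ⊢
  obtain ⟨a, b, c, d, hs, rfl⟩ := h
  have ha : a ≠ v := by rintro rfl; exact hv b hs.adj1
  have hb : b ≠ v := by rintro rfl; exact hv a hs.adj1.symm
  have hc : c ≠ v := by rintro rfl; exact hv d hs.adj2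
  have hd : d ≠ v := by rintro rfl; exact hv c hs.adj2.symm
  have hs' : SwitchAt (K₁ ⊔ S) a b c d := by
    refine ⟨hs.hab, hs.hac, hs.had, hs.hbc, hs.hbd, hs.hcd, Or.inl hs.adj1, Or.inl hs.adj2, ?_, ?_⟩
    · rintro (h | h)
      · exact hs.nadj1 h
      · rcases hS a c h with h | h
        · exact ha h
        · exact hc h
    · rintro (h | h)
      · exact hs.nadj2 h
      · rcases hS b d h with h | h
        · exact hb h
        · exact hd h
  refine ⟨a, b, c, d, hs', ?_⟩
  ext x y
  rw [SimpleGraph.sup_adj, switchGraph_adj hs.hac hs.hbd, switchGraph_adj hs.hac hs.hbd,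
    SimpleGraph.sup_adj]
  have h1 : S.Adj x y → s(x, y) ≠ s(a, b) := by
    intro hxy e
    rcases Sym2.eq_iff.mp e with ⟨e1, e2⟩ | ⟨e1, e2⟩ <;> rcases hS x y hxy with h | h
    · exact ha (e1 ▸ h)
    · exact hb (e2 ▸ h)
    · exact hb (e1 ▸ h)
    · exact ha (e2 ▸ h)
  have h2 : S.Adj x y → s(x, y) ≠ s(c, d) := by
    intro hxy e
    rcases Sym2.eq_iff.mp e with ⟨e1, e2⟩ | ⟨e1, e2⟩ <;> rcases hS x y hxy with h | h
    · exact hc (e1 ▸ h)
    · exact hd (e2 ▸ h)
    · exact hd (e1 ▸ h)
    · exact hc (e2 ▸ h)
  tauto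

theorem reflTransGen_sup_star {S : SimpleGraph (Fin n)} {v : Fin n}
    (hS : ∀ x y, S.Adj x y → x = v ∨ y = v) {K L : SimpleGraph (Fin n)}
    (h : Relation.ReflTransGen IsSwitch K L) (hv : K.degree v = 0) :
    Relation.ReflTransGen IsSwitch (K ⊔ S) (L ⊔ S) := by
  induction h using Relation.ReflTransGen.head_induction_on with
  | refl => exact Relation.ReflTransGen.refl
  | head hs _ ih =>
    have hv' := hs.degree_eq v
    rw [hv] at hv'
    exact Relation.ReflTransGen.head (hs.sup_star hv hS) (ih hv')

/-- Any two graphs on `Fin n` with the same degree at every vertex are joined by a chain of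
switches. -/
theorem switch_connected_aux : ∀ (m : ℕ) (G H : SimpleGraph (Fin n)),
    (∀ u, G.degree u = H.degree u) → ∑ u, G.degree u = m →
    Relation.ReflTransGen IsSwitch G H := by
  intro m
  induction m using Nat.strong_induction_on with
  | _ m ih =>
    intro G H hdeg hm
    by_cases hall : ∀ v, G.degree v = 0
    · have hG : G = ⊥ := by
        ext x y
        simp only [SimpleGraph.bot_adj, iff_false]
        exact (degree_eq_zero_iff' G x).mp (hall x) y
      have hH : H = ⊥ := by
        ext x y
        simp only [SimpleGraph.bot_adj, iff_false]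
        exact (degree_eq_zero_iff' H x).mp (by rw [← hdeg x]; exact hall x) y
      rw [hG, hH]
    · push Not at hall
      obtain ⟨v, hv⟩ := hall
      obtain ⟨G₁, H₁, hG₁, hH₁, hadj⟩ := align_vertex v _ G H hdeg rfl
      have hdeg₁ : ∀ u, G₁.degree u = H₁.degree u := by
        intro u
        rw [reflTransGen_degree hG₁ u, reflTransGen_degree hH₁ u, hdeg u]
      have hdeg' : ∀ u, (pinAt G₁ v).degree u = (pinAt H₁ v).degree u := by
        intro u
        rw [degree_pinAt, degree_pinAt, hdeg₁ u]
        by_cases huv : u = v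
        · simp [huv]
        · have : G₁.Adj u v ↔ H₁.Adj u v := by
            constructor
            · intro h; exact ((hadj u).mp h.symm).symm
            · intro h; exact ((hadj u).mpr h.symm).symm
          simp [this]
      have hlt : ∑ u, (pinAt G₁ v).degree u < m := by
        rw [← hm]
        have hGG : ∀ u, G₁.degree u = G.degree u := fun u => reflTransGen_degree hG₁ u
        apply Finset.sum_lt_sum
        · intro u _
          rw [degree_pinAt, ← hGG u]
          by_cases huv : u = v
          · simp [huv]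
          · rw [if_neg huv]; omega
        · refine ⟨v, Finset.mem_univ _, ?_⟩
          rw [degree_pinAt, if_pos rfl]
          omega
      have hchain := ih _ hlt (pinAt G₁ v) (pinAt H₁ v) hdeg' rfl
      have hv0 : (pinAt G₁ v).degree v = 0 := by
        rw [degree_pinAt, if_pos rfl]
      have hS : ∀ x y, (starAt G₁ v).Adj x y → x = v ∨ y = v := fun x y h => h.2
      have hlift := reflTransGen_sup_star hS hchain hv0
      rw [pinAt_sup_starAt, pinAt_sup_starAt' hadj] at hlift
      exact hG₁.trans (hlift.trans (reflTransGen_symm hH₁))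

theorem switch_connected {d : Fin n → ℕ} {G H : SimpleGraph (Fin n)} (hG : G ∈ realizations d)
    (hH : H ∈ realizations d) : Relation.ReflTransGen IsSwitch G H := by
  rw [mem_realizations] at hG hH
  exact switch_connected_aux _ G H (fun u => (hG u).trans (hH u).symm) rfl

end Vale.Agent.Lib.P335
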