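import Mathlib

/-!
# P335: the switch chain on the labelled graphs with a given degree vector

Definitions only.  Vertex set `Fin n`, degree vector `d : Fin n → ℕ`.
-/

namespace Vale.Agent.Lib.P335

open Finset
open scoped Classical

variable {n : ℕ}

/-- The set `Ω_d` of labelled simple graphs on `Fin n` with degree `d v` at every vertex `v`. -/
noncomputable def realizations (d : Fin n → ℕ) : Finset (SimpleGraph (Fin n)) :=
  Finset.univ.filter (fun G => ∀ v, G.degree v = d v)

/-- `H` is obtained from `G` by one switch: two disjoint edges `ab`, `cd` of `G` are removed and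
the matching `ac`, `bd` on the same four endpoints, both of whose edges are absent from `G`, is
inserted.  (The other matching `ad`, `bc` is covered by exchanging the names `c`, `d`.) -/
def IsSwitch (G H : SimpleGraph (Fin n)) : Prop :=
  ∃ a b c d : Fin n, a ≠ b ∧ a ≠ c ∧ a ≠ d ∧ b ≠ c ∧ b ≠ d ∧ c ≠ d ∧
    G.Adj a b ∧ G.Adj c d ∧ ¬ G.Adj a c ∧ ¬ G.Adj b d ∧
    H = SimpleGraph.fromEdgeSet ((G.edgeSet \ {s(a, b), s(c, d)}) ∪ {s(a, c), s(b, d)})

/-- The probability `1/2 · 1/C(n,4) · 1/6` with which the chain proposes one particular
triple (4-set, matching to remove, matching to insert). -/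
noncomputable def moveProb (n : ℕ) : ℝ := 1 / (12 * (n.choose 4 : ℝ))

/-- One-step transition probability `P_d(G, H)` of the lazy switch chain: `moveProb n` if `H` is
obtained from `G` by a switch, the remaining mass on the diagonal, and `0` otherwise. -/
noncomputable def kernel (G H : SimpleGraph (Fin n)) : ℝ :=
  if G = H then 1 - ((Finset.univ.filter (fun K => IsSwitch G K)).card : ℝ) * moveProb n
  else if IsSwitch G H then moveProb n else 0

/-- The distribution `P_d^t(G, ·)` of the chain after `t` steps from `G`. -/
noncomputable def dist (d : Fin n → ℕ) (G : SimpleGraph (Fin n)) :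
    ℕ → SimpleGraph (Fin n) → ℝ
  | 0 => fun H => if H = G then 1 else 0
  | t + 1 => fun H => ∑ K ∈ realizations d, dist d G t K * kernel K H

/-- Total variation distance between `μ` and the uniform distribution on `Ω_d`. -/
noncomputable def tvUniform (d : Fin n → ℕ) (μ : SimpleGraph (Fin n) → ℝ) : ℝ :=
  (1 / 2) * ∑ H ∈ realizations d, |μ H - 1 / ((realizations d).card : ℝ)|

/-- At time `t` the chain is within total variation distance `1/4` of uniform from every start. -/
def IsMixedAt (d : Fin n → ℕ) (t : ℕ) : Prop :=
  ∀ G ∈ realizations d, tvUniform d (dist d G t) ≤ 1 / 4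

/-- The mixing time `t_mix(d)`: the least `t` with `IsMixedAt d t`. -/
noncomputable def tmix (d : Fin n → ℕ) : ℕ := sInf {t | IsMixedAt d t}

end Vale.Agent.Lib.P335
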