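import Vale.Agent.Lib.P335.Defs

/-!
# P335: elementary facts on switches
-/

namespace Vale.Agent.Lib.P335

open Finset
open scoped Classical

variable {n : ℕ}

/-- The graph obtained from `G` by deleting `ab`, `cd` and inserting `ac`, `bd`. -/
def switchGraph (G : SimpleGraph (Fin n)) (a b c d : Fin n) : SimpleGraph (Fin n) :=
  SimpleGraph.fromEdgeSet ((G.edgeSet \ {s(a, b), s(c, d)}) ∪ {s(a, c), s(b, d)})

theorem isSwitch_iff (G H : SimpleGraph (Fin n)) :
    IsSwitch G H ↔ ∃ a b c d : Fin n, a ≠ b ∧ a ≠ c ∧ a ≠ d ∧ b ≠ c ∧ b ≠ d ∧ c ≠ d ∧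
      G.Adj a b ∧ G.Adj c d ∧ ¬ G.Adj a c ∧ ¬ G.Adj b d ∧ H = switchGraph G a b c d :=
  Iff.rfl

theorem degree_eq_sum (G : SimpleGraph (Fin n)) (v : Fin n) :
    G.degree v = ∑ w, if G.Adj v w then 1 else 0 := by
  rw [← SimpleGraph.card_neighborFinset_eq_degree, SimpleGraph.neighborFinset_eq_filter,
    Finset.card_filter]

theorem sum_sym2_eq (v p q : Fin n) (hpq : p ≠ q) :
    (∑ w, if s(v, w) = s(p, q) then (1 : ℤ) else 0)
      = (if v = p then 1 else 0) + (if v = q then 1 else 0) := by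
  by_cases h1 : v = p
  · subst h1
    have h2 : v ≠ q := hpq
    simp only [if_true, if_neg h2, add_zero]
    rw [Finset.sum_eq_single q]
    · simp
    · intro w _ hw
      rw [if_neg]
      simp [hw, h2]
    · simp
  · by_cases h2 : v = q
    · subst h2
      simp only [if_neg h1, if_true, zero_add]
      rw [Finset.sum_eq_single p]
      · simp [Sym2.eq_swap]
      · intro w _ hw
        rw [if_neg]
        simp [hw, h1]
      · simp
    · simp only [if_neg h1, if_neg h2, add_zero]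
      apply Finset.sum_eq_zero
      intro w _
      rw [if_neg]
      simp [h1, h2]

theorem switchGraph_adj {G : SimpleGraph (Fin n)} {a b c d : Fin n} (hac : a ≠ c) (hbd : b ≠ d)
    (x y : Fin n) :
    (switchGraph G a b c d).Adj x y ↔
      (G.Adj x y ∧ s(x, y) ≠ s(a, b) ∧ s(x, y) ≠ s(c, d)) ∨ s(x, y) = s(a, c) ∨
        s(x, y) = s(b, d) := by
  unfold switchGraph
  rw [SimpleGraph.fromEdgeSet_adj]
  constructor
  · rintro ⟨h, _⟩
    rcases h with ⟨h1, h2⟩ | h
    · left
      refine ⟨h1, ?_, ?_⟩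
      · intro h3; exact h2 (Or.inl h3)
      · intro h3; exact h2 (Or.inr h3)
    · right
      rcases h with h | h
      · exact Or.inl h
      · exact Or.inr h
  · rintro (⟨h1, h2, h3⟩ | h | h)
    · refine ⟨Or.inl ⟨h1, ?_⟩, G.ne_of_adj h1⟩
      rintro (h | h)
      · exact h2 h
      · exact h3 h
    · refine ⟨Or.inr (Or.inl h), ?_⟩
      intro hxy
      subst hxy
      rcases Sym2.eq_iff.mp h with ⟨h1, h2⟩ | ⟨h1, h2⟩
      · exact hac (h1.symm.trans h2)
      · exact hac (h2.symm.trans h1)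
    · refine ⟨Or.inr (Or.inr h), ?_⟩
      intro hxy
      subst hxy
      rcases Sym2.eq_iff.mp h with ⟨h1, h2⟩ | ⟨h1, h2⟩
      · exact hbd (h1.symm.trans h2)
      · exact hbd (h2.symm.trans h1)

/-- The hypotheses on the four vertices of a switch. -/
structure SwitchAt (G : SimpleGraph (Fin n)) (a b c d : Fin n) : Prop where
  hab : a ≠ b
  hac : a ≠ c
  had : a ≠ d
  hbc : b ≠ c
  hbd : b ≠ d
  hcd : c ≠ d
  adj1 : G.Adj a b
  adj2 : G.Adj c d
  nadj1 : ¬ G.Adj a c
  nadj2 : ¬ G.Adj b d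

theorem isSwitch_iff' (G H : SimpleGraph (Fin n)) :
    IsSwitch G H ↔ ∃ a b c d : Fin n, SwitchAt G a b c d ∧ H = switchGraph G a b c d := by
  rw [isSwitch_iff]
  constructor
  · rintro ⟨a, b, c, d, h1, h2, h3, h4, h5, h6, h7, h8, h9, h10, h11⟩
    exact ⟨a, b, c, d, ⟨h1, h2, h3, h4, h5, h6, h7, h8, h9, h10⟩, h11⟩
  · rintro ⟨a, b, c, d, h, h11⟩
    exact ⟨a, b, c, d, h.hab, h.hac, h.had, h.hbc, h.hbd, h.hcd, h.adj1, h.adj2, h.nadj1,
      h.nadj2, h11⟩

theorem SwitchAt.ind_eq {G : SimpleGraph (Fin n)} {a b c d : Fin n} (h : SwitchAt G a b c d)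
    (x y : Fin n) :
    ((if (switchGraph G a b c d).Adj x y then 1 else 0 : ℤ))
      = (if G.Adj x y then 1 else 0) - (if s(x, y) = s(a, b) then 1 else 0)
        - (if s(x, y) = s(c, d) then 1 else 0) + (if s(x, y) = s(a, c) then 1 else 0)
        + (if s(x, y) = s(b, d) then 1 else 0) := by
  have hab := h.hab; have hac := h.hac; have had := h.had
  have hbc := h.hbc; have hbd := h.hbd; have hcd := h.hcd
  have e12 : s(a, b) ≠ s(c, d) := by
    intro e; rcases Sym2.eq_iff.mp e with ⟨h1, h2⟩ | ⟨h1, h2⟩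
    · exact hac h1
    · exact had h1
  have e13 : s(a, b) ≠ s(a, c) := by
    intro e; rcases Sym2.eq_iff.mp e with ⟨h1, h2⟩ | ⟨h1, h2⟩
    · exact hbc h2
    · exact hac h1
  have e14 : s(a, b) ≠ s(b, d) := by
    intro e; rcases Sym2.eq_iff.mp e with ⟨h1, h2⟩ | ⟨h1, h2⟩
    · exact hab h1
    · exact had h1
  have e23 : s(c, d) ≠ s(a, c) := by
    intro e; rcases Sym2.eq_iff.mp e with ⟨h1, h2⟩ | ⟨h1, h2⟩
    · exact hac h1.symm
    · exact had h2.symm
  have e24 : s(c, d) ≠ s(b, d) := by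
    intro e; rcases Sym2.eq_iff.mp e with ⟨h1, h2⟩ | ⟨h1, h2⟩
    · exact hbc h1.symm
    · exact hcd h1
  have e34 : s(a, c) ≠ s(b, d) := by
    intro e; rcases Sym2.eq_iff.mp e with ⟨h1, h2⟩ | ⟨h1, h2⟩
    · exact hab h1
    · exact had h1
  have m1 : s(a, b) ∈ G.edgeSet := h.adj1
  have m2 : s(c, d) ∈ G.edgeSet := h.adj2
  have m3 : s(a, c) ∉ G.edgeSet := h.nadj1
  have m4 : s(b, d) ∉ G.edgeSet := h.nadj2
  rw [switchGraph_adj hac hbd]
  have hG : G.Adj x y ↔ s(x, y) ∈ G.edgeSet := Iff.rfl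
  rw [hG]
  by_cases h1 : s(x, y) = s(a, b)
  · rw [h1]; simp [m1, e12, e13, e14]
  · by_cases h2 : s(x, y) = s(c, d)
    · rw [h2]; simp [m2, e12.symm, e23, e24]
    · by_cases h3 : s(x, y) = s(a, c)
      · rw [h3]; simp [m3, e13.symm, e23.symm, e34]
      · by_cases h4 : s(x, y) = s(b, d)
        · rw [h4]; simp [m4, e14.symm, e24.symm, e34.symm]
        · simp [h1, h2, h3, h4]

theorem SwitchAt.degree_eq {G : SimpleGraph (Fin n)} {a b c d : Fin n} (h : SwitchAt G a b c d)
    (v : Fin n) : (switchGraph G a b c d).degree v = G.degree v := by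
  have key : ((switchGraph G a b c d).degree v : ℤ) = (G.degree v : ℤ) := by
    rw [degree_eq_sum, degree_eq_sum]
    push_cast
    simp only [h.ind_eq, Finset.sum_add_distrib, Finset.sum_sub_distrib]
    rw [sum_sym2_eq v a b h.hab, sum_sym2_eq v c d h.hcd, sum_sym2_eq v a c h.hac,
      sum_sym2_eq v b d h.hbd]
    ring
  exact_mod_cast key

theorem SwitchAt.reverse {G : SimpleGraph (Fin n)} {a b c d : Fin n} (h : SwitchAt G a b c d) :
    SwitchAt (switchGraph G a b c d) a c b d := by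
  have e12 : s(a, b) ≠ s(a, c) := by
    intro e; rcases Sym2.eq_iff.mp e with ⟨h1, h2⟩ | ⟨h1, h2⟩
    · exact h.hbc h2
    · exact h.hac h1
  have e14 : s(a, b) ≠ s(b, d) := by
    intro e; rcases Sym2.eq_iff.mp e with ⟨h1, h2⟩ | ⟨h1, h2⟩
    · exact h.hab h1
    · exact h.had h1
  have e23 : s(c, d) ≠ s(a, c) := by
    intro e; rcases Sym2.eq_iff.mp e with ⟨h1, h2⟩ | ⟨h1, h2⟩
    · exact h.hac h1.symm
    · exact h.had h2.symm
  have e24 : s(c, d) ≠ s(b, d) := by
    intro e; rcases Sym2.eq_iff.mp e with ⟨h1, h2⟩ | ⟨h1, h2⟩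
    · exact h.hbc h1.symm
    · exact h.hcd h1
  refine ⟨h.hac, h.hab, h.had, h.hbc.symm, h.hcd, h.hbd, ?_, ?_, ?_, ?_⟩
  · rw [switchGraph_adj h.hac h.hbd]; exact Or.inr (Or.inl rfl)
  · rw [switchGraph_adj h.hac h.hbd]; exact Or.inr (Or.inr rfl)
  · rw [switchGraph_adj h.hac h.hbd]
    rintro (⟨_, h2, _⟩ | h2 | h2)
    · exact h2 rfl
    · exact e12 h2
    · exact e14 h2
  · rw [switchGraph_adj h.hac h.hbd]
    rintro (⟨_, _, h2⟩ | h2 | h2)
    · exact h2 rfl
    · exact e23 h2
    · exact e24 h2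

theorem SwitchAt.reverse_eq {G : SimpleGraph (Fin n)} {a b c d : Fin n} (h : SwitchAt G a b c d) :
    switchGraph (switchGraph G a b c d) a c b d = G := by
  ext x y
  have h1 := h.reverse.ind_eq x y
  have h2 := h.ind_eq x y
  rw [h2] at h1
  have h3 : ((if (switchGraph (switchGraph G a b c d) a c b d).Adj x y then 1 else 0 : ℤ))
      = (if G.Adj x y then 1 else 0) := by rw [h1]; ring
  by_cases hG : G.Adj x y <;>
    by_cases hH : (switchGraph (switchGraph G a b c d) a c b d).Adj x y <;>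
    simp [hG, hH] at h3 ⊢

theorem SwitchAt.ne {G : SimpleGraph (Fin n)} {a b c d : Fin n} (h : SwitchAt G a b c d) :
    switchGraph G a b c d ≠ G := by
  intro e
  have := h.reverse.adj1
  rw [e] at this
  exact h.nadj1 this

theorem IsSwitch.symm {G H : SimpleGraph (Fin n)} (h : IsSwitch G H) : IsSwitch H G := by
  rw [isSwitch_iff'] at h ⊢
  obtain ⟨a, b, c, d, hs, rfl⟩ := h
  exact ⟨a, c, b, d, hs.reverse, hs.reverse_eq.symm⟩

theorem isSwitch_comm (G H : SimpleGraph (Fin n)) : IsSwitch G H ↔ IsSwitch H G :=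
  ⟨IsSwitch.symm, IsSwitch.symm⟩

theorem IsSwitch.ne {G H : SimpleGraph (Fin n)} (h : IsSwitch G H) : G ≠ H := by
  rw [isSwitch_iff'] at h
  obtain ⟨a, b, c, d, hs, rfl⟩ := h
  exact hs.ne.symm

theorem IsSwitch.degree_eq {G H : SimpleGraph (Fin n)} (h : IsSwitch G H) (v : Fin n) :
    H.degree v = G.degree v := by
  rw [isSwitch_iff'] at h
  obtain ⟨a, b, c, d, hs, rfl⟩ := h
  exact hs.degree_eq v

theorem IsSwitch.mem_realizations {G H : SimpleGraph (Fin n)} (h : IsSwitch G H)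
    {d : Fin n → ℕ} (hG : G ∈ realizations d) : H ∈ realizations d := by
  unfold realizations at hG ⊢
  rw [Finset.mem_filter] at hG ⊢
  exact ⟨Finset.mem_univ _, fun v => (h.degree_eq v).trans (hG.2 v)⟩

theorem mem_realizations {G : SimpleGraph (Fin n)} {d : Fin n → ℕ} :
    G ∈ realizations d ↔ ∀ v, G.degree v = d v := by
  unfold realizations
  simp

theorem switchGraph_perm1 (G : SimpleGraph (Fin n)) (a b c d : Fin n) :
    switchGraph G b a d c = switchGraph G a b c d := by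
  unfold switchGraph
  rw [Sym2.eq_swap (a := b) (b := a), Sym2.eq_swap (a := d) (b := c), Set.pair_comm s(b, d)]

theorem switchGraph_perm2 (G : SimpleGraph (Fin n)) (a b c d : Fin n) :
    switchGraph G c d a b = switchGraph G a b c d := by
  unfold switchGraph
  rw [Sym2.eq_swap (a := c) (b := a), Sym2.eq_swap (a := d) (b := b), Set.pair_comm s(c, d)]

theorem switchGraph_perm3 (G : SimpleGraph (Fin n)) (a b c d : Fin n) :
    switchGraph G d c b a = switchGraph G a b c d := by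
  rw [switchGraph_perm1 G c d a b, switchGraph_perm2]

/-- The four relabellings of a 4-tuple that give the same switch. -/
def kleinPerm : Fin 4 → Fin 4 → Fin 4 :=
  ![![0, 1, 2, 3], ![1, 0, 3, 2], ![2, 3, 0, 1], ![3, 2, 1, 0]]

theorem kleinPerm_injective (i : Fin 4) : Function.Injective (kleinPerm i) := by
  intro x y h
  fin_cases i <;> fin_cases x <;> fin_cases y <;> simp_all [kleinPerm]

theorem kleinPerm_zero (i : Fin 4) : kleinPerm i 0 = i := by
  fin_cases i <;> simp [kleinPerm]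

theorem switchGraph_klein (G : SimpleGraph (Fin n)) (t : Fin 4 → Fin n) (i : Fin 4) :
    switchGraph G (t (kleinPerm i 0)) (t (kleinPerm i 1)) (t (kleinPerm i 2)) (t (kleinPerm i 3))
      = switchGraph G (t 0) (t 1) (t 2) (t 3) := by
  fin_cases i
  · simp [kleinPerm]
  · simpa [kleinPerm] using switchGraph_perm1 G (t 0) (t 1) (t 2) (t 3)
  · simpa [kleinPerm] using switchGraph_perm2 G (t 0) (t 1) (t 2) (t 3)
  · simpa [kleinPerm] using switchGraph_perm3 G (t 0) (t 1) (t 2) (t 3)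

theorem SwitchAt.injective_tuple {G : SimpleGraph (Fin n)} {t : Fin 4 → Fin n}
    (h : SwitchAt G (t 0) (t 1) (t 2) (t 3)) : Function.Injective t := by
  intro x y hxy
  have hab := h.hab; have hac := h.hac; have had := h.had
  have hbc := h.hbc; have hbd := h.hbd; have hcd := h.hcd
  fin_cases x <;> fin_cases y <;> simp_all

/-- A graph has at most `6 * C(n,4)` switch neighbours. -/
theorem card_switch_le (G : SimpleGraph (Fin n)) :
    (Finset.univ.filter (fun K => IsSwitch G K)).card ≤ 6 * n.choose 4 := by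
  have hch : ∀ K : {K // IsSwitch G K}, ∃ t : Fin 4 → Fin n,
      SwitchAt G (t 0) (t 1) (t 2) (t 3) ∧ K.1 = switchGraph G (t 0) (t 1) (t 2) (t 3) := by
    rintro ⟨K, hK⟩
    rw [isSwitch_iff'] at hK
    obtain ⟨a, b, c, d, hs, rfl⟩ := hK
    exact ⟨![a, b, c, d], by simpa using hs, by simp⟩
  choose t ht using hch
  let f : {K // IsSwitch G K} × Fin 4 → (Fin 4 ↪ Fin n) := fun p =>
    ⟨fun j => t p.1 (kleinPerm p.2 j),
      (ht p.1).1.injective_tuple.comp (kleinPerm_injective p.2)⟩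
  have hf : Function.Injective f := by
    rintro ⟨K, i⟩ ⟨K', i'⟩ hKK
    have hfun : ∀ j, t K (kleinPerm i j) = t K' (kleinPerm i' j) := by
      intro j
      have := congrArg (fun e : Fin 4 ↪ Fin n => e j) hKK
      simpa [f] using this
    have hK : K = K' := by
      apply Subtype.ext
      rw [(ht K).2, (ht K').2, ← switchGraph_klein G (t K) i, ← switchGraph_klein G (t K') i',
        hfun 0, hfun 1, hfun 2, hfun 3]
    subst hK
    have hi : i = i' := by
      have h0 := hfun 0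
      have := (ht K).1.injective_tuple h0
      rwa [kleinPerm_zero, kleinPerm_zero] at this
    rw [hi]
  have hcard := Fintype.card_le_of_injective f hf
  rw [Fintype.card_prod, Fintype.card_embedding_eq, Fintype.card_fin, Fintype.card_fin,
    Fintype.card_subtype, Nat.descFactorial_eq_factorial_mul_choose] at hcard
  have h24 : Nat.factorial 4 = 24 := by decide
  rw [h24] at hcard
  omega

end Vale.Agent.Lib.P335
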