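import Mathlib

/-!
# P335: the degree vector (2,2,1,1,0,...,0)
-/

namespace Vale.Agent.Lib.P335

/-- The degree vector `(2, 2, 1, 1, 0, ..., 0)` on `Fin n`: vertices `0, 1` have degree `2`,
vertices `2, 3` have degree `1`, all other vertices have degree `0`. -/
def dvec (n : ℕ) : Fin n → ℕ :=
  fun v => if v.val < 2 then 2 else if v.val < 4 then 1 else 0

end Vale.Agent.Lib.P335
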