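import Mathlib
import Vale.Agent.Lib.P335.Defs
import Vale.Agent.Lib.P335.QuarticDefs

/-!
# P335: the switch chain for the degree vector (2,2,1,1,0,...,0)

There are exactly two realizations (the paths 2-0-1-3 and 3-0-1-2), joined by one switch,
so the chain is the symmetric two-state chain with flip probability `moveProb n`.
-/

namespace Vale.Agent.Lib.P335

open Finset
open scoped Classical

/-- the path 2 - 0 - 1 - 3 -/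
def gA (n : ℕ) : SimpleGraph (Fin n) where
  Adj v w := (v.val = 0 ∧ w.val = 1) ∨ (v.val = 1 ∧ w.val = 0) ∨ (v.val = 0 ∧ w.val = 2) ∨
    (v.val = 2 ∧ w.val = 0) ∨ (v.val = 1 ∧ w.val = 3) ∨ (v.val = 3 ∧ w.val = 1)
  symm := ⟨fun v w h => by omega⟩
  loopless := ⟨fun v h => by omega⟩

/-- the path 3 - 0 - 1 - 2 -/
def gB (n : ℕ) : SimpleGraph (Fin n) where
  Adj v w := (v.val = 0 ∧ w.val = 1) ∨ (v.val = 1 ∧ w.val = 0) ∨ (v.val = 0 ∧ w.val = 3) ∨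
    (v.val = 3 ∧ w.val = 0) ∨ (v.val = 1 ∧ w.val = 2) ∨ (v.val = 2 ∧ w.val = 1)
  symm := ⟨fun v w h => by omega⟩
  loopless := ⟨fun v h => by omega⟩

theorem gA_adj {n : ℕ} (v w : Fin n) : (gA n).Adj v w ↔
    ((v.val = 0 ∧ w.val = 1) ∨ (v.val = 1 ∧ w.val = 0) ∨ (v.val = 0 ∧ w.val = 2) ∨
    (v.val = 2 ∧ w.val = 0) ∨ (v.val = 1 ∧ w.val = 3) ∨ (v.val = 3 ∧ w.val = 1)) := Iff.rfl

theorem gB_adj {n : ℕ} (v w : Fin n) : (gB n).Adj v w ↔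
    ((v.val = 0 ∧ w.val = 1) ∨ (v.val = 1 ∧ w.val = 0) ∨ (v.val = 0 ∧ w.val = 3) ∨
    (v.val = 3 ∧ w.val = 0) ∨ (v.val = 1 ∧ w.val = 2) ∨ (v.val = 2 ∧ w.val = 1)) := Iff.rfl

theorem sum_four {n : ℕ} (hn : 4 ≤ n) (f : Fin n → ℕ) (hf : ∀ w : Fin n, 4 ≤ w.val → f w = 0) :
    ∑ w, f w = f ⟨0, by omega⟩ + f ⟨1, by omega⟩ + f ⟨2, by omega⟩ + f ⟨3, by omega⟩ := by
  have hsub : ({⟨0, by omega⟩, ⟨1, by omega⟩, ⟨2, by omega⟩, ⟨3, by omega⟩} : Finset (Fin n)) ⊆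
      Finset.univ := Finset.subset_univ _
  rw [← Finset.sum_subset hsub]
  · rw [Finset.sum_insert, Finset.sum_insert, Finset.sum_insert, Finset.sum_singleton]
    · ring
    · simp [Fin.ext_iff]
    · simp [Fin.ext_iff]
    · simp [Fin.ext_iff]
  · intro w _ hw
    apply hf
    simp only [Finset.mem_insert, Finset.mem_singleton, Fin.ext_iff] at hw
    omega

theorem degree_eq_sum_q {n : ℕ} (G : SimpleGraph (Fin n)) (v : Fin n) :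
    G.degree v = ∑ w, (if G.Adj v w then 1 else 0) := by
  rw [← SimpleGraph.card_neighborFinset_eq_degree, Finset.card_eq_sum_ones, ← Finset.sum_filter]
  congr 1
  ext w
  simp

theorem gA_degree {n : ℕ} (hn : 4 ≤ n) (v : Fin n) : (gA n).degree v = dvec n v := by
  rw [degree_eq_sum_q, sum_four hn _ (fun w hw => if_neg (by rw [gA_adj]; omega))]
  simp only [gA_adj, dvec]
  have hv : v.val = 0 ∨ v.val = 1 ∨ v.val = 2 ∨ v.val = 3 ∨ 4 ≤ v.val := by omega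
  rcases hv with h | h | h | h | h
  · simp [h]
  · simp [h]
  · simp [h]
  · simp [h]
  · rw [if_neg (by omega), if_neg (by omega), if_neg (by omega), if_neg (by omega),
      if_neg (by omega), if_neg (by omega)]

theorem gB_degree {n : ℕ} (hn : 4 ≤ n) (v : Fin n) : (gB n).degree v = dvec n v := by
  rw [degree_eq_sum_q, sum_four hn _ (fun w hw => if_neg (by rw [gB_adj]; omega))]
  simp only [gB_adj, dvec]
  have hv : v.val = 0 ∨ v.val = 1 ∨ v.val = 2 ∨ v.val = 3 ∨ 4 ≤ v.val := by omega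
  rcases hv with h | h | h | h | h
  · simp [h]
  · simp [h]
  · simp [h]
  · simp [h]
  · rw [if_neg (by omega), if_neg (by omega), if_neg (by omega), if_neg (by omega),
      if_neg (by omega), if_neg (by omega)]

theorem gA_ne_gB {n : ℕ} (hn : 4 ≤ n) : gA n ≠ gB n := by
  intro h
  have h2 : (gA n).Adj ⟨0, by omega⟩ ⟨2, by omega⟩ := by rw [gA_adj]; simp
  rw [h, gB_adj] at h2
  simp at h2

theorem eq_gA_of {n : ℕ} (hn : 4 ≤ n) (G : SimpleGraph (Fin n))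
    (iso : ∀ v w : Fin n, 4 ≤ v.val → ¬ G.Adj v w)
    (h01 : G.Adj (⟨0, by omega⟩ : Fin n) ⟨1, by omega⟩)
    (h02 : G.Adj (⟨0, by omega⟩ : Fin n) ⟨2, by omega⟩)
    (h03 : ¬ G.Adj (⟨0, by omega⟩ : Fin n) ⟨3, by omega⟩)
    (h12 : ¬ G.Adj (⟨1, by omega⟩ : Fin n) ⟨2, by omega⟩)
    (h13 : G.Adj (⟨1, by omega⟩ : Fin n) ⟨3, by omega⟩)
    (h23 : ¬ G.Adj (⟨2, by omega⟩ : Fin n) ⟨3, by omega⟩) : G = gA n := by
  have h10 := h01.symm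
  have h20 := h02.symm
  have h31 := h13.symm
  have h30 : ¬ G.Adj (⟨3, by omega⟩ : Fin n) ⟨0, by omega⟩ := fun h => h03 h.symm
  have h21 : ¬ G.Adj (⟨2, by omega⟩ : Fin n) ⟨1, by omega⟩ := fun h => h12 h.symm
  have h32 : ¬ G.Adj (⟨3, by omega⟩ : Fin n) ⟨2, by omega⟩ := fun h => h23 h.symm
  have irr : ∀ v : Fin n, ¬ G.Adj v v := fun v => G.irrefl
  apply SimpleGraph.ext; funext v w; apply propext; rw [gA_adj]
  by_cases hv : 4 ≤ v.val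
  · exact ⟨fun h => absurd h (iso v w hv), fun h => by omega⟩
  by_cases hw : 4 ≤ w.val
  · exact ⟨fun h => absurd h.symm (iso w v hw), fun h => by omega⟩
  obtain ⟨i, hi⟩ := v
  obtain ⟨j, hj⟩ := w
  simp only [not_le] at hv hw
  interval_cases i <;> interval_cases j <;>
    first
    | exact iff_of_true (by assumption) (by simp)
    | exact iff_of_false (by first | assumption | exact irr _) (by simp)

theorem eq_gB_of {n : ℕ} (hn : 4 ≤ n) (G : SimpleGraph (Fin n))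
    (iso : ∀ v w : Fin n, 4 ≤ v.val → ¬ G.Adj v w)
    (h01 : G.Adj (⟨0, by omega⟩ : Fin n) ⟨1, by omega⟩)
    (h02 : ¬ G.Adj (⟨0, by omega⟩ : Fin n) ⟨2, by omega⟩)
    (h03 : G.Adj (⟨0, by omega⟩ : Fin n) ⟨3, by omega⟩)
    (h12 : G.Adj (⟨1, by omega⟩ : Fin n) ⟨2, by omega⟩)
    (h13 : ¬ G.Adj (⟨1, by omega⟩ : Fin n) ⟨3, by omega⟩)
    (h23 : ¬ G.Adj (⟨2, by omega⟩ : Fin n) ⟨3, by omega⟩) : G = gB n := by
  have h10 := h01.symm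
  have h30 := h03.symm
  have h21 := h12.symm
  have h20 : ¬ G.Adj (⟨2, by omega⟩ : Fin n) ⟨0, by omega⟩ := fun h => h02 h.symm
  have h31 : ¬ G.Adj (⟨3, by omega⟩ : Fin n) ⟨1, by omega⟩ := fun h => h13 h.symm
  have h32 : ¬ G.Adj (⟨3, by omega⟩ : Fin n) ⟨2, by omega⟩ := fun h => h23 h.symm
  have irr : ∀ v : Fin n, ¬ G.Adj v v := fun v => G.irrefl
  apply SimpleGraph.ext; funext v w; apply propext; rw [gB_adj]
  by_cases hv : 4 ≤ v.val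
  · exact ⟨fun h => absurd h (iso v w hv), fun h => by omega⟩
  by_cases hw : 4 ≤ w.val
  · exact ⟨fun h => absurd h.symm (iso w v hw), fun h => by omega⟩
  obtain ⟨i, hi⟩ := v
  obtain ⟨j, hj⟩ := w
  simp only [not_le] at hv hw
  interval_cases i <;> interval_cases j <;>
    first
    | exact iff_of_true (by assumption) (by simp)
    | exact iff_of_false (by first | assumption | exact irr _) (by simp)

/-- Every graph with degree vector `(2,2,1,1,0,...,0)` is one of the two paths. -/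
theorem classify {n : ℕ} (hn : 4 ≤ n) (G : SimpleGraph (Fin n))
    (hG : ∀ v, G.degree v = dvec n v) : G = gA n ∨ G = gB n := by
  have iso : ∀ v w : Fin n, 4 ≤ v.val → ¬ G.Adj v w := by
    intro v w hv hadj
    have hd := hG v
    rw [degree_eq_sum_q] at hd
    have h0 : dvec n v = 0 := by
      unfold dvec
      rw [if_neg (by omega), if_neg (by omega)]
    rw [h0] at hd
    have := Finset.sum_eq_zero_iff.mp hd w (Finset.mem_univ w)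
    simp [hadj] at this
  have deg4 : ∀ v : Fin n, G.degree v =
      (if G.Adj v ⟨0, by omega⟩ then 1 else 0) + (if G.Adj v ⟨1, by omega⟩ then 1 else 0)
      + (if G.Adj v ⟨2, by omega⟩ then 1 else 0) + (if G.Adj v ⟨3, by omega⟩ then 1 else 0) := by
    intro v
    rw [degree_eq_sum_q]
    refine sum_four hn _ (fun w hw => ?_)
    rw [if_neg]
    intro h
    exact iso w v hw h.symm
  have e0 := deg4 ⟨0, by omega⟩
  have e1 := deg4 ⟨1, by omega⟩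
  have e2 := deg4 ⟨2, by omega⟩
  have e3 := deg4 ⟨3, by omega⟩
  rw [hG] at e0 e1 e2 e3
  have d0 : dvec n ⟨0, by omega⟩ = 2 := by simp [dvec]
  have d1 : dvec n ⟨1, by omega⟩ = 2 := by simp [dvec]
  have d2 : dvec n ⟨2, by omega⟩ = 1 := by simp [dvec]
  have d3 : dvec n ⟨3, by omega⟩ = 1 := by simp [dvec]
  rw [d0] at e0; rw [d1] at e1; rw [d2] at e2; rw [d3] at e3
  have irr : ∀ v : Fin n, ¬ G.Adj v v := fun v => G.irrefl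
  have sy : ∀ v w : Fin n, G.Adj v w ↔ G.Adj w v := fun v w => G.adj_comm v w
  rw [if_neg (irr _)] at e0 e1 e2 e3
  rw [sy ⟨1, by omega⟩ ⟨0, by omega⟩] at e1
  rw [sy ⟨2, by omega⟩ ⟨0, by omega⟩, sy ⟨2, by omega⟩ ⟨1, by omega⟩] at e2
  rw [sy ⟨3, by omega⟩ ⟨0, by omega⟩, sy ⟨3, by omega⟩ ⟨1, by omega⟩,
    sy ⟨3, by omega⟩ ⟨2, by omega⟩] at e3
  by_cases a01 : G.Adj (⟨0, by omega⟩ : Fin n) ⟨1, by omega⟩ <;>
  by_cases a02 : G.Adj (⟨0, by omega⟩ : Fin n) ⟨2, by omega⟩ <;>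
  by_cases a03 : G.Adj (⟨0, by omega⟩ : Fin n) ⟨3, by omega⟩ <;>
  by_cases a12 : G.Adj (⟨1, by omega⟩ : Fin n) ⟨2, by omega⟩ <;>
  by_cases a13 : G.Adj (⟨1, by omega⟩ : Fin n) ⟨3, by omega⟩ <;>
  by_cases a23 : G.Adj (⟨2, by omega⟩ : Fin n) ⟨3, by omega⟩ <;>
  simp only [a01, a02, a03, a12, a13, a23, if_true, if_false] at e0 e1 e2 e3 <;>
  first
  | omega
  | exact Or.inl (eq_gA_of hn G iso a01 a02 a03 a12 a13 a23)
  | exact Or.inr (eq_gB_of hn G iso a01 a02 a03 a12 a13 a23)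

theorem realizations_dvec {n : ℕ} (hn : 4 ≤ n) : realizations (dvec n) = {gA n, gB n} := by
  ext G
  simp only [realizations, Finset.mem_filter, Finset.mem_univ, true_and, Finset.mem_insert,
    Finset.mem_singleton]
  constructor
  · exact classify hn G
  · rintro (rfl | rfl)
    · exact gA_degree hn
    · exact gB_degree hn

/-! ### Switches out of the two paths -/

theorem sw_swap1 {n : ℕ} (G : SimpleGraph (Fin n)) (a b c d : Fin n) :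
    SimpleGraph.fromEdgeSet ((G.edgeSet \ {s(b, a), s(d, c)}) ∪ {s(b, d), s(a, c)}) =
    SimpleGraph.fromEdgeSet ((G.edgeSet \ {s(a, b), s(c, d)}) ∪ {s(a, c), s(b, d)}) := by
  rw [Sym2.eq_swap (a := b) (b := a), Sym2.eq_swap (a := d) (b := c),
    Set.pair_comm s(b, d) s(a, c)]

theorem sw_swap2 {n : ℕ} (G : SimpleGraph (Fin n)) (a b c d : Fin n) :
    SimpleGraph.fromEdgeSet ((G.edgeSet \ {s(c, d), s(a, b)}) ∪ {s(c, a), s(d, b)}) =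
    SimpleGraph.fromEdgeSet ((G.edgeSet \ {s(a, b), s(c, d)}) ∪ {s(a, c), s(b, d)}) := by
  rw [Sym2.eq_swap (a := c) (b := a), Sym2.eq_swap (a := d) (b := b),
    Set.pair_comm s(c, d) s(a, b)]

theorem canon_gA {n : ℕ} (hn : 4 ≤ n) :
    SimpleGraph.fromEdgeSet (((gA n).edgeSet \
      {s((⟨0, by omega⟩ : Fin n), ⟨2, by omega⟩), s((⟨3, by omega⟩ : Fin n), ⟨1, by omega⟩)}) ∪
      {s((⟨0, by omega⟩ : Fin n), ⟨3, by omega⟩), s((⟨2, by omega⟩ : Fin n), ⟨1, by omega⟩)})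
    = gB n := by
  apply SimpleGraph.ext; funext v w; apply propext
  rw [SimpleGraph.fromEdgeSet_adj, gB_adj]
  simp only [Set.mem_union, Set.mem_sdiff, Set.mem_insert_iff, Set.mem_singleton_iff,
    SimpleGraph.mem_edgeSet, Sym2.eq_iff, Fin.ext_iff, gA_adj, ne_eq]
  omega

theorem canon_gB {n : ℕ} (hn : 4 ≤ n) :
    SimpleGraph.fromEdgeSet (((gB n).edgeSet \
      {s((⟨0, by omega⟩ : Fin n), ⟨3, by omega⟩), s((⟨2, by omega⟩ : Fin n), ⟨1, by omega⟩)}) ∪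
      {s((⟨0, by omega⟩ : Fin n), ⟨2, by omega⟩), s((⟨3, by omega⟩ : Fin n), ⟨1, by omega⟩)})
    = gA n := by
  apply SimpleGraph.ext; funext v w; apply propext
  rw [SimpleGraph.fromEdgeSet_adj, gA_adj]
  simp only [Set.mem_union, Set.mem_sdiff, Set.mem_insert_iff, Set.mem_singleton_iff,
    SimpleGraph.mem_edgeSet, Sym2.eq_iff, Fin.ext_iff, gB_adj, ne_eq]
  omega

theorem labels_gA (a b c d : ℕ)
    (h1 : (a = 0 ∧ b = 1) ∨ (a = 1 ∧ b = 0) ∨ (a = 0 ∧ b = 2) ∨ (a = 2 ∧ b = 0) ∨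
      (a = 1 ∧ b = 3) ∨ (a = 3 ∧ b = 1))
    (h2 : (c = 0 ∧ d = 1) ∨ (c = 1 ∧ d = 0) ∨ (c = 0 ∧ d = 2) ∨ (c = 2 ∧ d = 0) ∨
      (c = 1 ∧ d = 3) ∨ (c = 3 ∧ d = 1))
    (h3 : ¬ ((a = 0 ∧ c = 1) ∨ (a = 1 ∧ c = 0) ∨ (a = 0 ∧ c = 2) ∨ (a = 2 ∧ c = 0) ∨
      (a = 1 ∧ c = 3) ∨ (a = 3 ∧ c = 1)))
    (h4 : ¬ ((b = 0 ∧ d = 1) ∨ (b = 1 ∧ d = 0) ∨ (b = 0 ∧ d = 2) ∨ (b = 2 ∧ d = 0) ∨
      (b = 1 ∧ d = 3) ∨ (b = 3 ∧ d = 1)))
    (hac : a ≠ c) (had : a ≠ d) (hbc : b ≠ c) (hbd : b ≠ d) :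
    (a = 0 ∧ b = 2 ∧ c = 3 ∧ d = 1) ∨ (a = 2 ∧ b = 0 ∧ c = 1 ∧ d = 3) ∨
      (a = 1 ∧ b = 3 ∧ c = 2 ∧ d = 0) ∨ (a = 3 ∧ b = 1 ∧ c = 0 ∧ d = 2) := by
  rcases h1 with ⟨rfl, rfl⟩ | ⟨rfl, rfl⟩ | ⟨rfl, rfl⟩ | ⟨rfl, rfl⟩ | ⟨rfl, rfl⟩ | ⟨rfl, rfl⟩ <;>
  rcases h2 with ⟨rfl, rfl⟩ | ⟨rfl, rfl⟩ | ⟨rfl, rfl⟩ | ⟨rfl, rfl⟩ | ⟨rfl, rfl⟩ | ⟨rfl, rfl⟩ <;>
  simp at h3 h4 hac had hbc hbd ⊢

theorem labels_gB (a b c d : ℕ)
    (h1 : (a = 0 ∧ b = 1) ∨ (a = 1 ∧ b = 0) ∨ (a = 0 ∧ b = 3) ∨ (a = 3 ∧ b = 0) ∨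
      (a = 1 ∧ b = 2) ∨ (a = 2 ∧ b = 1))
    (h2 : (c = 0 ∧ d = 1) ∨ (c = 1 ∧ d = 0) ∨ (c = 0 ∧ d = 3) ∨ (c = 3 ∧ d = 0) ∨
      (c = 1 ∧ d = 2) ∨ (c = 2 ∧ d = 1))
    (h3 : ¬ ((a = 0 ∧ c = 1) ∨ (a = 1 ∧ c = 0) ∨ (a = 0 ∧ c = 3) ∨ (a = 3 ∧ c = 0) ∨
      (a = 1 ∧ c = 2) ∨ (a = 2 ∧ c = 1)))
    (h4 : ¬ ((b = 0 ∧ d = 1) ∨ (b = 1 ∧ d = 0) ∨ (b = 0 ∧ d = 3) ∨ (b = 3 ∧ d = 0) ∨
      (b = 1 ∧ d = 2) ∨ (b = 2 ∧ d = 1)))
    (hac : a ≠ c) (had : a ≠ d) (hbc : b ≠ c) (hbd : b ≠ d) :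
    (a = 0 ∧ b = 3 ∧ c = 2 ∧ d = 1) ∨ (a = 3 ∧ b = 0 ∧ c = 1 ∧ d = 2) ∨
      (a = 1 ∧ b = 2 ∧ c = 3 ∧ d = 0) ∨ (a = 2 ∧ b = 1 ∧ c = 0 ∧ d = 3) := by
  rcases h1 with ⟨rfl, rfl⟩ | ⟨rfl, rfl⟩ | ⟨rfl, rfl⟩ | ⟨rfl, rfl⟩ | ⟨rfl, rfl⟩ | ⟨rfl, rfl⟩ <;>
  rcases h2 with ⟨rfl, rfl⟩ | ⟨rfl, rfl⟩ | ⟨rfl, rfl⟩ | ⟨rfl, rfl⟩ | ⟨rfl, rfl⟩ | ⟨rfl, rfl⟩ <;>
  simp at h3 h4 hac had hbc hbd ⊢

theorem switch_gA {n : ℕ} (K : SimpleGraph (Fin n)) (h : IsSwitch (gA n) K) : K = gB n := by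
  obtain ⟨a, b, c, d, hab, hac, had, hbc, hbd, hcd, h1, h2, h3, h4, rfl⟩ := h
  rw [gA_adj] at h1 h2 h3 h4
  simp only [ne_eq, Fin.ext_iff] at hab hac had hbc hbd hcd
  have key := labels_gA a.val b.val c.val d.val h1 h2 h3 h4 hac had hbc hbd
  have hn : 4 ≤ n := by
    have := a.isLt; have := b.isLt; have := c.isLt; have := d.isLt
    omega
  have l0 : 0 < n := by omega
  have l1 : 1 < n := by omega
  have l2 : 2 < n := by omega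
  have l3 : 3 < n := by omega
  rcases key with ⟨ha, hb, hc, hd⟩ | ⟨ha, hb, hc, hd⟩ | ⟨ha, hb, hc, hd⟩ | ⟨ha, hb, hc, hd⟩
  · obtain rfl : a = ⟨0, l0⟩ := Fin.ext ha
    obtain rfl : b = ⟨2, l2⟩ := Fin.ext hb
    obtain rfl : c = ⟨3, l3⟩ := Fin.ext hc
    obtain rfl : d = ⟨1, l1⟩ := Fin.ext hd
    exact canon_gA hn
  · obtain rfl : a = ⟨2, l2⟩ := Fin.ext ha
    obtain rfl : b = ⟨0, l0⟩ := Fin.ext hb
    obtain rfl : c = ⟨1, l1⟩ := Fin.ext hc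
    obtain rfl : d = ⟨3, l3⟩ := Fin.ext hd
    rw [sw_swap1]
    exact canon_gA hn
  · obtain rfl : a = ⟨1, l1⟩ := Fin.ext ha
    obtain rfl : b = ⟨3, l3⟩ := Fin.ext hb
    obtain rfl : c = ⟨2, l2⟩ := Fin.ext hc
    obtain rfl : d = ⟨0, l0⟩ := Fin.ext hd
    rw [sw_swap2, sw_swap1]
    exact canon_gA hn
  · obtain rfl : a = ⟨3, l3⟩ := Fin.ext ha
    obtain rfl : b = ⟨1, l1⟩ := Fin.ext hb
    obtain rfl : c = ⟨0, l0⟩ := Fin.ext hc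
    obtain rfl : d = ⟨2, l2⟩ := Fin.ext hd
    rw [sw_swap2]
    exact canon_gA hn

theorem switch_gB {n : ℕ} (K : SimpleGraph (Fin n)) (h : IsSwitch (gB n) K) : K = gA n := by
  obtain ⟨a, b, c, d, hab, hac, had, hbc, hbd, hcd, h1, h2, h3, h4, rfl⟩ := h
  rw [gB_adj] at h1 h2 h3 h4
  simp only [ne_eq, Fin.ext_iff] at hab hac had hbc hbd hcd
  have key := labels_gB a.val b.val c.val d.val h1 h2 h3 h4 hac had hbc hbd
  have hn : 4 ≤ n := by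
    have := a.isLt; have := b.isLt; have := c.isLt; have := d.isLt
    omega
  have l0 : 0 < n := by omega
  have l1 : 1 < n := by omega
  have l2 : 2 < n := by omega
  have l3 : 3 < n := by omega
  rcases key with ⟨ha, hb, hc, hd⟩ | ⟨ha, hb, hc, hd⟩ | ⟨ha, hb, hc, hd⟩ | ⟨ha, hb, hc, hd⟩
  · obtain rfl : a = ⟨0, l0⟩ := Fin.ext ha
    obtain rfl : b = ⟨3, l3⟩ := Fin.ext hb
    obtain rfl : c = ⟨2, l2⟩ := Fin.ext hc
    obtain rfl : d = ⟨1, l1⟩ := Fin.ext hd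
    exact canon_gB hn
  · obtain rfl : a = ⟨3, l3⟩ := Fin.ext ha
    obtain rfl : b = ⟨0, l0⟩ := Fin.ext hb
    obtain rfl : c = ⟨1, l1⟩ := Fin.ext hc
    obtain rfl : d = ⟨2, l2⟩ := Fin.ext hd
    rw [sw_swap1]
    exact canon_gB hn
  · obtain rfl : a = ⟨1, l1⟩ := Fin.ext ha
    obtain rfl : b = ⟨2, l2⟩ := Fin.ext hb
    obtain rfl : c = ⟨3, l3⟩ := Fin.ext hc
    obtain rfl : d = ⟨0, l0⟩ := Fin.ext hd
    rw [sw_swap2, sw_swap1]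
    exact canon_gB hn
  · obtain rfl : a = ⟨2, l2⟩ := Fin.ext ha
    obtain rfl : b = ⟨1, l1⟩ := Fin.ext hb
    obtain rfl : c = ⟨0, l0⟩ := Fin.ext hc
    obtain rfl : d = ⟨3, l3⟩ := Fin.ext hd
    rw [sw_swap2]
    exact canon_gB hn

theorem isSwitch_gA_gB {n : ℕ} (hn : 4 ≤ n) : IsSwitch (gA n) (gB n) := by
  refine ⟨⟨0, by omega⟩, ⟨2, by omega⟩, ⟨3, by omega⟩, ⟨1, by omega⟩,
    ?_, ?_, ?_, ?_, ?_, ?_, ?_, ?_, ?_, ?_, (canon_gA hn).symm⟩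
  · simp [Fin.ext_iff]
  · simp [Fin.ext_iff]
  · simp [Fin.ext_iff]
  · simp [Fin.ext_iff]
  · simp [Fin.ext_iff]
  · simp [Fin.ext_iff]
  · rw [gA_adj]; simp
  · rw [gA_adj]; simp
  · rw [gA_adj]; simp
  · rw [gA_adj]; simp

theorem isSwitch_gB_gA {n : ℕ} (hn : 4 ≤ n) : IsSwitch (gB n) (gA n) := by
  refine ⟨⟨0, by omega⟩, ⟨3, by omega⟩, ⟨2, by omega⟩, ⟨1, by omega⟩,
    ?_, ?_, ?_, ?_, ?_, ?_, ?_, ?_, ?_, ?_, (canon_gB hn).symm⟩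
  · simp [Fin.ext_iff]
  · simp [Fin.ext_iff]
  · simp [Fin.ext_iff]
  · simp [Fin.ext_iff]
  · simp [Fin.ext_iff]
  · simp [Fin.ext_iff]
  · rw [gB_adj]; simp
  · rw [gB_adj]; simp
  · rw [gB_adj]; simp
  · rw [gB_adj]; simp

end Vale.Agent.Lib.P335
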