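import Mathlib
import Vale.Agent.Lib.P335.Defs
import Vale.Agent.Lib.P335.QuarticDefs
import Vale.Agent.Lib.P335.Quartic

/-!
# P335: mixing of the switch chain for the degree vector (2,2,1,1,0,...,0)

The chain is the symmetric two-state chain with flip probability `q = moveProb n`, so the
total variation distance to uniform after `t` steps is exactly `(1 - 2q)^t / 2`.
-/

namespace Vale.Agent.Lib.P335

open Finset
open scoped Classical

theorem filter_switch_gA {n : ℕ} (hn : 4 ≤ n) :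
    (Finset.univ.filter (fun K => IsSwitch (gA n) K)) = {gB n} := by
  ext K
  simp only [Finset.mem_filter, Finset.mem_univ, true_and, Finset.mem_singleton]
  constructor
  · exact switch_gA K
  · rintro rfl
    exact isSwitch_gA_gB hn

theorem filter_switch_gB {n : ℕ} (hn : 4 ≤ n) :
    (Finset.univ.filter (fun K => IsSwitch (gB n) K)) = {gA n} := by
  ext K
  simp only [Finset.mem_filter, Finset.mem_univ, true_and, Finset.mem_singleton]
  constructor
  · exact switch_gB K
  · rintro rfl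
    exact isSwitch_gB_gA hn

theorem kernel_AA {n : ℕ} (hn : 4 ≤ n) : kernel (gA n) (gA n) = 1 - moveProb n := by
  unfold kernel
  rw [if_pos rfl, filter_switch_gA hn, Finset.card_singleton, Nat.cast_one, one_mul]

theorem kernel_BB {n : ℕ} (hn : 4 ≤ n) : kernel (gB n) (gB n) = 1 - moveProb n := by
  unfold kernel
  rw [if_pos rfl, filter_switch_gB hn, Finset.card_singleton, Nat.cast_one, one_mul]

theorem kernel_AB {n : ℕ} (hn : 4 ≤ n) : kernel (gA n) (gB n) = moveProb n := by
  unfold kernel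
  rw [if_neg (gA_ne_gB hn), if_pos (isSwitch_gA_gB hn)]

theorem kernel_BA {n : ℕ} (hn : 4 ≤ n) : kernel (gB n) (gA n) = moveProb n := by
  unfold kernel
  rw [if_neg (gA_ne_gB hn).symm, if_pos (isSwitch_gB_gA hn)]

/-- The `t`-step distribution of a symmetric two-state chain. -/
theorem two_state {n : ℕ} (d : Fin n → ℕ) (X Y : SimpleGraph (Fin n)) (q : ℝ) (hXY : X ≠ Y)
    (hΩ : realizations d = {X, Y})
    (kXX : kernel X X = 1 - q) (kXY : kernel X Y = q) (kYX : kernel Y X = q)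
    (kYY : kernel Y Y = 1 - q) (t : ℕ) :
    dist d X t X = (1 + (1 - 2 * q) ^ t) / 2 ∧ dist d X t Y = (1 - (1 - 2 * q) ^ t) / 2 := by
  induction t with
  | zero =>
    constructor
    · simp [dist]
    · simp [dist, hXY.symm]
  | succ t ih =>
    obtain ⟨ih1, ih2⟩ := ih
    constructor
    · show ∑ K ∈ realizations d, dist d X t K * kernel K X = _
      rw [hΩ, Finset.sum_pair hXY, ih1, ih2, kXX, kYX]
      ring
    · show ∑ K ∈ realizations d, dist d X t K * kernel K Y = _
      rw [hΩ, Finset.sum_pair hXY, ih1, ih2, kXY, kYY]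
      ring

theorem tv_two_state {n : ℕ} (d : Fin n → ℕ) (X Y : SimpleGraph (Fin n)) (q : ℝ) (hXY : X ≠ Y)
    (hΩ : realizations d = {X, Y})
    (kXX : kernel X X = 1 - q) (kXY : kernel X Y = q) (kYX : kernel Y X = q)
    (kYY : kernel Y Y = 1 - q) (t : ℕ) :
    tvUniform d (dist d X t) = |(1 - 2 * q) ^ t| / 2 := by
  obtain ⟨h1, h2⟩ := two_state d X Y q hXY hΩ kXX kXY kYX kYY t
  unfold tvUniform
  rw [hΩ, Finset.sum_pair hXY, Finset.card_pair hXY, h1, h2]
  have e1 : (1 + (1 - 2 * q) ^ t) / 2 - 1 / ((2 : ℕ) : ℝ) = (1 - 2 * q) ^ t / 2 := by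
    push_cast; ring
  have e2 : (1 - (1 - 2 * q) ^ t) / 2 - 1 / ((2 : ℕ) : ℝ) = -((1 - 2 * q) ^ t / 2) := by
    push_cast; ring
  rw [e1, e2, abs_neg, abs_div, abs_two]
  ring

theorem moveProb_mul {n : ℕ} (hn : 4 ≤ n) : moveProb n * (12 * (n.choose 4 : ℝ)) = 1 := by
  have hC : (0 : ℝ) < (n.choose 4 : ℝ) := by exact_mod_cast Nat.choose_pos hn
  unfold moveProb
  field_simp

theorem moveProb_pos {n : ℕ} (hn : 4 ≤ n) : 0 < moveProb n := by
  have hC : (0 : ℝ) < (n.choose 4 : ℝ) := by exact_mod_cast Nat.choose_pos hn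
  unfold moveProb
  positivity

theorem moveProb_le {n : ℕ} (hn : 4 ≤ n) : moveProb n ≤ 1 / 12 := by
  have hC : (1 : ℝ) ≤ (n.choose 4 : ℝ) := by exact_mod_cast Nat.choose_pos hn
  have h1 := moveProb_mul hn
  have h2 := moveProb_pos hn
  nlinarith

/-- Exact total variation distance to uniform for the degree vector `(2,2,1,1,0,...,0)`. -/
theorem tv_dvec {n : ℕ} (hn : 4 ≤ n) (G : SimpleGraph (Fin n)) (hG : G ∈ realizations (dvec n))
    (t : ℕ) : tvUniform (dvec n) (dist (dvec n) G t) = (1 - 2 * moveProb n) ^ t / 2 := by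
  have hr : (0 : ℝ) ≤ 1 - 2 * moveProb n := by
    have := moveProb_le hn
    linarith
  have habs : |(1 - 2 * moveProb n) ^ t| = (1 - 2 * moveProb n) ^ t :=
    abs_of_nonneg (pow_nonneg hr t)
  have hΩ := realizations_dvec hn
  rw [hΩ] at hG
  simp only [Finset.mem_insert, Finset.mem_singleton] at hG
  rcases hG with rfl | rfl
  · rw [tv_two_state (dvec n) (gA n) (gB n) (moveProb n) (gA_ne_gB hn) hΩ (kernel_AA hn)
      (kernel_AB hn) (kernel_BA hn) (kernel_BB hn) t, habs]
  · rw [tv_two_state (dvec n) (gB n) (gA n) (moveProb n) (gA_ne_gB hn).symm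
      (by rw [hΩ, Finset.pair_comm]) (kernel_BB hn)
      (kernel_BA hn) (kernel_AB hn) (kernel_AA hn) t, habs]

theorem realizations_dvec_nonempty {n : ℕ} (hn : 4 ≤ n) : (realizations (dvec n)).Nonempty := by
  rw [realizations_dvec hn]
  exact ⟨gA n, Finset.mem_insert_self _ _⟩

/-- Before time `3 * C(n,4)` the chain for `(2,2,1,1,0,...,0)` is not mixed. -/
theorem not_mixed_dvec {n : ℕ} (hn : 4 ≤ n) (t : ℕ) (ht : t < 3 * n.choose 4) :
    ¬ IsMixedAt (dvec n) t := by
  intro hmix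
  have hA : gA n ∈ realizations (dvec n) := by
    rw [realizations_dvec hn]
    exact Finset.mem_insert_self _ _
  have h := hmix (gA n) hA
  rw [tv_dvec hn (gA n) hA t] at h
  have hq1 := moveProb_mul hn
  have hq0 := moveProb_pos hn
  have hq2 := moveProb_le hn
  have htr : (t : ℝ) < 3 * (n.choose 4 : ℝ) := by exact_mod_cast ht
  have hb := one_add_mul_le_pow (a := -(2 * moveProb n)) (by linarith) t
  have hb' : 1 + (t : ℝ) * (-(2 * moveProb n)) ≤ (1 - 2 * moveProb n) ^ t := by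
    have e : (1 : ℝ) + -(2 * moveProb n) = 1 - 2 * moveProb n := by ring
    rw [e] at hb
    exact hb
  have h3 : moveProb n * (t : ℝ) < moveProb n * (3 * (n.choose 4 : ℝ)) :=
    mul_lt_mul_of_pos_left htr hq0
  nlinarith

theorem exp_bound : Real.exp (-(5 / 6 : ℝ)) ≤ 1 / 2 := by
  have h := Real.quadratic_le_exp_of_nonneg (x := (5 / 6 : ℝ)) (by norm_num)
  have h2 : (2 : ℝ) ≤ Real.exp (5 / 6 : ℝ) := by
    refine le_trans ?_ h
    norm_num
  rw [Real.exp_neg]
  have hpos : (0 : ℝ) < Real.exp (5 / 6 : ℝ) := Real.exp_pos _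
  rw [inv_le_comm₀ hpos (by norm_num)]
  refine le_trans ?_ h2
  norm_num

/-- At time `5 * C(n,4)` the chain for `(2,2,1,1,0,...,0)` is mixed. -/
theorem mixed_dvec {n : ℕ} (hn : 4 ≤ n) : IsMixedAt (dvec n) (5 * n.choose 4) := by
  intro G hG
  rw [tv_dvec hn G hG]
  have hq1 := moveProb_mul hn
  have hq2 := moveProb_le hn
  have hr : (0 : ℝ) ≤ 1 - 2 * moveProb n := by linarith
  have h1 : 1 - 2 * moveProb n ≤ Real.exp (-(2 * moveProb n)) := Real.one_sub_le_exp_neg _
  have h2 := pow_le_pow_left₀ hr h1 (5 * n.choose 4)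
  rw [← Real.exp_nat_mul] at h2
  have e : ((5 * n.choose 4 : ℕ) : ℝ) * -(2 * moveProb n) = -(5 / 6 : ℝ) := by
    push_cast
    linarith
  rw [e] at h2
  have h3 := exp_bound
  linarith

theorem tmix_dvec {n : ℕ} (hn : 4 ≤ n) :
    3 * n.choose 4 ≤ tmix (dvec n) ∧ tmix (dvec n) ≤ 5 * n.choose 4 := by
  have hne : {t | IsMixedAt (dvec n) t}.Nonempty := ⟨_, mixed_dvec hn⟩
  constructor
  · by_contra hlt
    push Not at hlt
    exact not_mixed_dvec hn _ hlt (Nat.sInf_mem hne)
  · exact Nat.sInf_le (mixed_dvec hn)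

end Vale.Agent.Lib.P335
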