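import Vale.Agent.Lib.P335.Chain
import Vale.Agent.Lib.P335.Connect

/-!
# P335: a Poincare inequality valid for every degree vector, from connectivity alone
-/

namespace Vale.Agent.Lib.P335

open Finset
open scoped Classical

variable {n : ℕ}

/-- The switch graph on the realizations of `d`. -/
def switchSG (d : Fin n → ℕ) : SimpleGraph {G : SimpleGraph (Fin n) // G ∈ realizations d} where
  Adj a b := IsSwitch a.1 b.1
  symm := ⟨fun _ _ h => h.symm⟩
  loopless := ⟨fun _ h => h.ne rfl⟩

theorem switchSG_reachable (d : Fin n → ℕ)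
    (a b : {G : SimpleGraph (Fin n) // G ∈ realizations d}) : (switchSG d).Reachable a b := by
  have h := switch_connected a.2 b.2
  have key : ∀ H, Relation.ReflTransGen IsSwitch a.1 H →
      ∃ hH : H ∈ realizations d, (switchSG d).Reachable a ⟨H, hH⟩ := by
    intro H hH
    induction hH with
    | refl => exact ⟨a.2, SimpleGraph.Reachable.refl _⟩
    | tail _ hs ih =>
      obtain ⟨hK, hr⟩ := ih
      refine ⟨hs.mem_realizations hK, hr.trans ?_⟩
      exact SimpleGraph.Adj.reachable (G := switchSG d) (u := ⟨_, hK⟩)
        (v := ⟨_, hs.mem_realizations hK⟩) hs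
  obtain ⟨_, hr⟩ := key b.1 h
  exact hr

theorem walk_bound (d : Fin n → ℕ) (u : SimpleGraph (Fin n) → ℝ) (B : ℝ)
    (hB : ∀ a b : {G : SimpleGraph (Fin n) // G ∈ realizations d},
      (switchSG d).Adj a b → |u a.1 - u b.1| ≤ B) :
    ∀ {a b : {G : SimpleGraph (Fin n) // G ∈ realizations d}} (p : (switchSG d).Walk a b),
      |u a.1 - u b.1| ≤ p.length * B := by
  intro a b p
  induction p with
  | nil => simp
  | cons h p ih =>
    rename_i x y z
    have h1 := hB _ _ h
    have h2 : |u x.1 - u z.1| ≤ |u x.1 - u y.1| + |u y.1 - u z.1| := by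
      have : u x.1 - u z.1 = (u x.1 - u y.1) + (u y.1 - u z.1) := by ring
      rw [this]; exact abs_add_le _ _
    rw [SimpleGraph.Walk.length_cons]
    push_cast
    linarith

theorem switchEnergy_nonneg (d : Fin n → ℕ) (u : SimpleGraph (Fin n) → ℝ) :
    0 ≤ switchEnergy d u := by
  unfold switchEnergy
  apply Finset.sum_nonneg; intro G _
  apply Finset.sum_nonneg; intro H _
  by_cases hs : IsSwitch G H
  · rw [if_pos hs]; exact sq_nonneg _
  · rw [if_neg hs]

theorem sq_le_switchEnergy (d : Fin n → ℕ) (u : SimpleGraph (Fin n) → ℝ)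
    {G H : SimpleGraph (Fin n)} (hG : G ∈ realizations d) (hH : H ∈ realizations d)
    (hs : IsSwitch G H) : (u G - u H) ^ 2 ≤ switchEnergy d u := by
  unfold switchEnergy
  have h1 : (u G - u H) ^ 2 ≤ ∑ K ∈ realizations d, if IsSwitch G K then (u G - u K) ^ 2 else 0 := by
    have := Finset.single_le_sum (f := fun K => if IsSwitch G K then (u G - u K) ^ 2 else 0)
      (s := realizations d) (fun K _ => by
        by_cases hk : IsSwitch G K
        · simp only [if_pos hk]; exact sq_nonneg _
        · simp only [if_neg hk]; exact le_refl _) hH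
    simpa [hs] using this
  have h2 := Finset.single_le_sum
    (f := fun G' => ∑ K ∈ realizations d, if IsSwitch G' K then (u G' - u K) ^ 2 else 0)
    (s := realizations d) (fun G' _ => by
      apply Finset.sum_nonneg; intro K _
      by_cases hk : IsSwitch G' K
      · simp only [if_pos hk]; exact sq_nonneg _
      · simp only [if_neg hk]; exact le_refl _) hG
  exact h1.trans h2

/-- Any two realizations differ in `u` by at most `N * sqrt(switchEnergy)`. -/
theorem sq_diff_le (d : Fin n → ℕ) (u : SimpleGraph (Fin n) → ℝ)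
    {G H : SimpleGraph (Fin n)} (hG : G ∈ realizations d) (hH : H ∈ realizations d) :
    (u G - u H) ^ 2 ≤ ((realizations d).card : ℝ) ^ 2 * switchEnergy d u := by
  have hE := switchEnergy_nonneg d u
  set B := Real.sqrt (switchEnergy d u) with hBdef
  have hB0 : 0 ≤ B := Real.sqrt_nonneg _
  have hB2 : B ^ 2 = switchEnergy d u := Real.sq_sqrt hE
  have hB : ∀ a b : {G : SimpleGraph (Fin n) // G ∈ realizations d},
      (switchSG d).Adj a b → |u a.1 - u b.1| ≤ B := by
    intro a b hab
    have h1 := sq_le_switchEnergy d u a.2 b.2 hab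
    rw [← hB2] at h1
    exact abs_le_of_sq_le_sq' h1 hB0 |> fun h => abs_le.mpr h
  obtain ⟨p⟩ := switchSG_reachable d ⟨G, hG⟩ ⟨H, hH⟩
  have hp := walk_bound d u B hB p.toPath.1
  have hlen : ((p.toPath.1).length : ℝ) ≤ (realizations d).card := by
    have h1 := SimpleGraph.Walk.IsPath.length_lt p.toPath.2
    rw [Fintype.card_coe] at h1
    exact_mod_cast h1.le
  have h3 : |u G - u H| ≤ ((realizations d).card : ℝ) * B :=
    hp.trans (mul_le_mul_of_nonneg_right hlen hB0)
  have h4 : (u G - u H) ^ 2 ≤ (((realizations d).card : ℝ) * B) ^ 2 := by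
    rw [← sq_abs (u G - u H)]
    exact pow_le_pow_left₀ (abs_nonneg _) h3 2
  rw [mul_pow, hB2] at h4
  exact h4

/-- For `u` with zero sum on the realizations, `Σ u² ≤ (N³/2) * switchEnergy`. -/
theorem sum_sq_le_card_cube (d : Fin n → ℕ) (u : SimpleGraph (Fin n) → ℝ)
    (hu : ∑ H ∈ realizations d, u H = 0) :
    ∑ H ∈ realizations d, (u H) ^ 2
      ≤ ((realizations d).card : ℝ) ^ 3 / 2 * switchEnergy d u := by
  by_cases hN : (realizations d).card = 0
  · have hN' := Finset.card_eq_zero.mp hN
    rw [hN', Finset.sum_empty, Finset.card_empty]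
    norm_num
  have hNpos : (0 : ℝ) < (realizations d).card := by
    have : 0 < (realizations d).card := Nat.pos_of_ne_zero hN
    exact_mod_cast this
  have hE := switchEnergy_nonneg d u
  -- Σ_G Σ_H (u G - u H)² = 2 N Σ u²
  have hid : ∑ G ∈ realizations d, ∑ H ∈ realizations d, (u G - u H) ^ 2
      = 2 * ((realizations d).card : ℝ) * ∑ H ∈ realizations d, (u H) ^ 2 := by
    have h1 : ∀ G ∈ realizations d, ∑ H ∈ realizations d, (u G - u H) ^ 2
        = ((realizations d).card : ℝ) * (u G) ^ 2 - 2 * u G * ∑ H ∈ realizations d, u H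
          + ∑ H ∈ realizations d, (u H) ^ 2 := by
      intro G _
      have : ∀ H ∈ realizations d, (u G - u H) ^ 2 = (u G) ^ 2 - 2 * u G * u H + (u H) ^ 2 := by
        intro H _; ring
      rw [Finset.sum_congr rfl this, Finset.sum_add_distrib, Finset.sum_sub_distrib,
        Finset.sum_const, nsmul_eq_mul, ← Finset.mul_sum]
    rw [Finset.sum_congr rfl h1, Finset.sum_add_distrib, Finset.sum_sub_distrib,
      ← Finset.mul_sum, Finset.sum_const, nsmul_eq_mul, hu]
    simp only [mul_zero, Finset.sum_const_zero, sub_zero]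
    ring
  have hbd : ∑ G ∈ realizations d, ∑ H ∈ realizations d, (u G - u H) ^ 2
      ≤ ((realizations d).card : ℝ) * (((realizations d).card : ℝ) *
          (((realizations d).card : ℝ) ^ 2 * switchEnergy d u)) := by
    have h1 : ∀ G ∈ realizations d, ∑ H ∈ realizations d, (u G - u H) ^ 2
        ≤ ((realizations d).card : ℝ) * (((realizations d).card : ℝ) ^ 2 * switchEnergy d u) := by
      intro G hG
      have := Finset.sum_le_sum (s := realizations d) (fun H hH => sq_diff_le d u hG hH)
      rw [Finset.sum_const, nsmul_eq_mul] at this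
      exact this
    have := Finset.sum_le_sum h1
    rw [Finset.sum_const, nsmul_eq_mul] at this
    exact this
  rw [hid] at hbd
  have h6 : 2 * ((realizations d).card : ℝ) * ∑ H ∈ realizations d, (u H) ^ 2
      ≤ 2 * ((realizations d).card : ℝ)
        * (((realizations d).card : ℝ) ^ 3 / 2 * switchEnergy d u) := by
    calc 2 * ((realizations d).card : ℝ) * ∑ H ∈ realizations d, (u H) ^ 2
        ≤ ((realizations d).card : ℝ) * (((realizations d).card : ℝ) *
            (((realizations d).card : ℝ) ^ 2 * switchEnergy d u)) := hbd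
      _ = 2 * ((realizations d).card : ℝ)
            * (((realizations d).card : ℝ) ^ 3 / 2 * switchEnergy d u) := by ring
  exact le_of_mul_le_mul_left h6 (by linarith)

/-- The Poincare inequality with constant `moveProb n / N³`, valid for every degree vector. -/
theorem poincare_universal (d : Fin n → ℕ) (hne : (realizations d).Nonempty) :
    Poincare d (moveProb n / ((realizations d).card : ℝ) ^ 3) := by
  intro u hu
  have hNpos : (0 : ℝ) < (realizations d).card := by
    have : 0 < (realizations d).card := Finset.card_pos.mpr hne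
    exact_mod_cast this
  have h1 := sum_sq_le_card_cube d u hu
  have hq := moveProb_nonneg n
  have h2 : moveProb n / ((realizations d).card : ℝ) ^ 3 * ∑ H ∈ realizations d, (u H) ^ 2
      ≤ moveProb n / ((realizations d).card : ℝ) ^ 3
        * (((realizations d).card : ℝ) ^ 3 / 2 * switchEnergy d u) :=
    mul_le_mul_of_nonneg_left h1 (by positivity)
  have h3 : moveProb n / ((realizations d).card : ℝ) ^ 3
        * (((realizations d).card : ℝ) ^ 3 / 2 * switchEnergy d u)
      = moveProb n / 2 * switchEnergy d u := by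
    field_simp
  linarith

end Vale.Agent.Lib.P335
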